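import Crest.Agent.R341.Holevo

/-! Kraus forms, product ensembles and tensor powers. -/

set_option autoImplicit false
set_option linter.unusedSectionVars false

open Matrix Crest.Quantum Filter Topology Crest.MathPhysics.AmpDamp
open scoped ComplexOrder ComplexConjugate Kronecker
open Crest.Agent.VN

namespace Crest.Agent.R341

variable {d e : Type*} [Fintype d] [DecidableEq d] [Fintype e] [DecidableEq e]

lemma good_kraus {ι : Type*} [Fintype ι] (K : ι → Matrix e d ℂ) {Ψ : Matrix d d ℂ → Matrix e e ℂ}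
    (hK : ∀ M, Ψ M = ∑ a, K a * M * (K a)ᴴ) (htp : ∀ M, (Ψ M).trace = M.trace) : Good Ψ := by
  refine ⟨⟨fun X Y => ?_, fun c X => ?_⟩, htp, fun X hX => ?_, fun M hM => ?_⟩
  · simp only [hK, Matrix.mul_add, Matrix.add_mul, Finset.sum_add_distrib]
  · simp only [hK, Matrix.mul_smul, Matrix.smul_mul, Finset.smul_sum]
  · rw [hK]; exact posSemidef_sum _ fun a _ => hX.mul_mul_conjTranspose_same _
  · have : blockwise Ψ M =
        ∑ a, ((1 : Matrix Bool Bool ℂ) ⊗ₖ K a) * M * ((1 : Matrix Bool Bool ℂ) ⊗ₖ K a)ᴴ := by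
      ext ⟨s, i⟩ ⟨t, j⟩
      simp only [blockwise, of_apply, hK, Matrix.sum_apply]
      refine Finset.sum_congr rfl fun a _ => ?_
      cases s <;> cases t <;> simp [mul_apply, Fintype.sum_prod_type, block, one_apply]
    rw [this]
    exact posSemidef_sum _ fun a _ => hM.mul_mul_conjTranspose_same _

/-- Kraus operators of the generalized amplitude damping channel -/
noncomputable def kr (γ ν : ℝ) (a : Bool × Bool) : Matrix Bool Bool ℂ := fun s s' =>
  ((match a, s, s' with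
    | (false, false), false, false => √(1 - ν)
    | (false, false), true, true => √(1 - ν) * √(1 - γ)
    | (false, true), false, true => √(γ * (1 - ν))
    | (true, false), false, false => √ν * √(1 - γ)
    | (true, false), true, true => √ν
    | (true, true), true, false => √(γ * ν)
    | _, _, _ => 0 : ℝ) : ℂ)

lemma coeff_eq {γ ν : ℝ} (hγ : γ ∈ Set.Icc (0 : ℝ) 1) (hν : ν ∈ Set.Icc (0 : ℝ) 1)
    (s t s' t' : Bool) :
    qubitCoeff (gadMap γ ν) s t s' t' = ∑ a, kr γ ν a s s' * conj (kr γ ν a t t') := by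
  have a1 : √(1 - ν) * √(1 - ν) = 1 - ν := Real.mul_self_sqrt (by linarith [hν.2])
  have a2 : √(1 - γ) * √(1 - γ) = 1 - γ := Real.mul_self_sqrt (by linarith [hγ.2])
  have a3 : √ν * √ν = ν := Real.mul_self_sqrt hν.1
  have a4 : √(γ * ν) * √(γ * ν) = γ * ν := Real.mul_self_sqrt (mul_nonneg hγ.1 hν.1)
  have a5 : √(γ * (1 - ν)) * √(γ * (1 - ν)) = γ * (1 - ν) :=
    Real.mul_self_sqrt (mul_nonneg hγ.1 (by linarith [hν.2]))
  simp only [kr, Complex.conj_ofReal, ← Complex.ofReal_mul, ← Complex.ofReal_sum,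
    Fintype.sum_prod_type, Fintype.sum_bool]
  cases s <;> cases t <;> cases s' <;> cases t' <;>
    simp only [qubitCoeff, gadMap, of_apply, single_apply, Bool.false_eq_true, Bool.true_eq_false,
      and_self, and_true, and_false, if_true, if_false, mul_one, mul_zero,
      add_zero, zero_add, Complex.ofReal_inj, zero_mul, Complex.ofReal_zero]
  · linear_combination -a1 - √ν * √ν * a2 - (1 - γ) * a3
  · linear_combination -a5
  · linear_combination -√(1 - γ) * a1 - √(1 - γ) * a3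
  · linear_combination -√(1 - γ) * a1 - √(1 - γ) * a3
  · linear_combination -a4
  · linear_combination -a3 - √(1 - ν) * √(1 - ν) * a2 - (1 - γ) * a1

lemma gadMap_apply (γ ν : ℝ) (M : Matrix Bool Bool ℂ) (s t : Bool) :
    gadMap γ ν M s t = ∑ s', ∑ t', qubitCoeff (gadMap γ ν) s t s' t' * M s' t' := by
  cases s <;> cases t <;> simp [qubitCoeff, gadMap, add_comm]

lemma good_gad {γ ν : ℝ} (hγ : γ ∈ Set.Icc (0 : ℝ) 1) (hν : ν ∈ Set.Icc (0 : ℝ) 1) :
    Good (gadMap γ ν) := by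
  refine good_kraus (kr γ ν) (fun M => ?_) fun M => ?_
  · ext s t
    rw [gadMap_apply]
    simp only [coeff_eq hγ hν, Matrix.sum_apply, mul_apply, conjTranspose_apply, Finset.sum_mul,
      RCLike.star_def]
    conv_rhs => rw [Finset.sum_comm]; arg 2; ext t'; rw [Finset.sum_comm]
    rw [Finset.sum_comm]
    refine Finset.sum_congr rfl fun t' _ => Finset.sum_congr rfl fun s' _ =>
      Finset.sum_congr rfl fun a _ => by ring
  · simp [Matrix.trace, gadMap]; ring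

lemma good_power {γ ν : ℝ} (hγ : γ ∈ Set.Icc (0 : ℝ) 1) (hν : ν ∈ Set.Icc (0 : ℝ) 1) (n : ℕ) :
    Good (qubitPower n (gadMap γ ν)) := by
  refine good_kraus (fun a : Fin n → Bool × Bool =>
    (of fun σ σ' => ∏ i, kr γ ν (a i) (σ i) (σ' i) : Matrix (Fin n → Bool) (Fin n → Bool) ℂ))
    (fun M => ?_) fun M => ?_
  · ext σ τ
    simp only [qubitPower, of_apply, coeff_eq hγ hν, Finset.prod_univ_sum, Fintype.piFinset_univ,
      Matrix.sum_apply, mul_apply, conjTranspose_apply, Finset.sum_mul, RCLike.star_def, map_prod,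
      Finset.prod_mul_distrib]
    conv_rhs => rw [Finset.sum_comm]; arg 2; ext t'; rw [Finset.sum_comm]
    rw [Finset.sum_comm]
    refine Finset.sum_congr rfl fun t' _ => Finset.sum_congr rfl fun s' _ =>
      Finset.sum_congr rfl fun a _ => by ring
  · have h1 : ∀ s' t', ∑ s, qubitCoeff (gadMap γ ν) s s s' t' = if s' = t' then 1 else 0 := by
      intro s' t'
      cases s' <;> cases t' <;> simp [qubitCoeff, gadMap]
      ring
    simp only [Matrix.trace, diag_apply, qubitPower, of_apply]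
    rw [Finset.sum_comm]
    refine Finset.sum_congr rfl fun σ' _ => ?_
    rw [Finset.sum_comm]
    have h2 : ∀ τ' : Fin n → Bool, ∑ σ : Fin n → Bool,
        (∏ i, qubitCoeff (gadMap γ ν) (σ i) (σ i) (σ' i) (τ' i)) * M σ' τ' =
        if σ' = τ' then M σ' τ' else 0 := by
      intro τ'
      rw [← Finset.sum_mul, ← Fintype.piFinset_univ,
        ← Finset.prod_univ_sum (fun _ => Finset.univ)
          fun i s => qubitCoeff (gadMap γ ν) s s (σ' i) (τ' i)]
      simp only [h1, Finset.prod_boole, Finset.mem_univ, forall_const, funext_iff]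
      split_ifs <;> simp
    simp [h2]

/-- pure qubit state -/
noncomputable def pureSt (p : ℝ) (s : Bool) : Matrix Bool Bool ℂ :=
  vecMulVec (fun b => ((if b then (if s then √p else -√p) else √(1 - p) : ℝ) : ℂ))
    (star fun b => ((if b then (if s then √p else -√p) else √(1 - p) : ℝ) : ℂ))

lemma pureSt_ff {p : ℝ} (hp : p ∈ Set.Icc (0 : ℝ) 1) (s : Bool) :
    pureSt p s false false = ((1 - p : ℝ) : ℂ) := by
  simp only [pureSt, vecMulVec_apply, Pi.star_apply, RCLike.star_def, Complex.conj_ofReal,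
    ← Complex.ofReal_mul, Complex.ofReal_inj]
  simpa using Real.mul_self_sqrt (by linarith [hp.2])

lemma pureSt_tt {p : ℝ} (hp : p ∈ Set.Icc (0 : ℝ) 1) (s : Bool) :
    pureSt p s true true = (p : ℂ) := by
  simp only [pureSt, vecMulVec_apply, Pi.star_apply, RCLike.star_def, Complex.conj_ofReal,
    ← Complex.ofReal_mul, Complex.ofReal_inj]
  cases s <;> simpa using Real.mul_self_sqrt hp.1

lemma pureSt_density {p : ℝ} (hp : p ∈ Set.Icc (0 : ℝ) 1) (s : Bool) : IsDensity (pureSt p s) :=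
  ⟨posSemidef_vecMulVec_self_star _, by
    simp [Matrix.trace, pureSt_ff hp, pureSt_tt hp]⟩

lemma det_bool (X : Matrix Bool Bool ℂ) :
    X.det = X false false * X true true - X false true * X true false := by
  rw [← det_submatrix_equiv_self finTwoEquiv, det_fin_two]
  simp [finTwoEquiv]

lemma vn_pure {γ ν p : ℝ} (hγ : γ ∈ Set.Icc (0 : ℝ) 1) (hν : ν ∈ Set.Icc (0 : ℝ) 1)
    (hp : p ∈ Set.Icc (0 : ℝ) 1) (s : Bool) : vnEntropy (gadMap γ ν (pureSt p s)) = F (vv γ ν p) := by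
  refine vn_qubit ((good_gad hγ hν).density (pureSt_density hp s)) ?_
  have a1 : √(1 - γ) * √(1 - γ) = 1 - γ := Real.mul_self_sqrt (by linarith [hγ.2])
  have a2 : √(1 - p) * √(1 - p) = 1 - p := Real.mul_self_sqrt (by linarith [hp.2])
  have a3 : √p * √p = p := Real.mul_self_sqrt hp.1
  rw [det_bool]
  simp only [gadMap, of_apply, pureSt_ff hp, pureSt_tt hp, Bool.false_eq_true, Bool.true_eq_false,
    and_self, and_true, and_false, if_true, if_false]
  simp only [pureSt, vecMulVec_apply, Pi.star_apply, RCLike.star_def, Complex.conj_ofReal,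
    ← Complex.ofReal_mul, ← Complex.ofReal_add, ← Complex.ofReal_sub, Complex.ofReal_inj, vv_eq]
  cases s <;> simp only [Bool.false_eq_true, if_true, if_false] <;>
    linear_combination (-(√(1 - p) * √(1 - p) * √p * √p)) * a1 - (1 - γ) * √p * √p * a2 -
      (1 - γ) * (1 - p) * a3

lemma exists_qubit_ens {γ ν : ℝ} (hγ : γ ∈ Set.Icc (0 : ℝ) 1) (hν : ν ∈ Set.Icc (0 : ℝ) 1)
    {ι : Type*} [Fintype ι] (q p : ι → ℝ) (hq : ∀ a, 0 ≤ q a) (hs : ∑ a, q a = 1)
    (hp : ∀ a, p a ∈ Set.Icc (0 : ℝ) 1) :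
    ∃ (m : ℕ) (q' : Fin m → ℝ) (ρ' : Fin m → Matrix Bool Bool ℂ), IsEnsemble q' ρ' ∧
      holevoInfo (gadMap γ ν) q' ρ' =
        Real.binEntropy ((1 - γ) * (∑ a, q a * p a) + γ * ν) - ∑ a, q a * F (vv γ ν (p a)) := by
  obtain ⟨m, q', ρ', he, hq'⟩ := exists_ensemble (gadMap γ ν) (fun a : ι × Bool => q a.1 / 2)
    (fun a => pureSt (p a.1) a.2) (fun a => by have := hq a.1; positivity)
    (by simp [Fintype.sum_prod_type, ← hs]; exact Finset.sum_congr rfl fun a _ => by ring)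
    (fun a => pureSt_density (hp a.1) a.2)
  refine ⟨m, q', ρ', he, ?_⟩
  rw [hq']
  congr 1
  · set r := (1 - γ) * (∑ a, q a * p a) + γ * ν with hr
    have : ∑ a : ι × Bool, ((q a.1 / 2 : ℝ) : ℂ) • gadMap γ ν (pureSt (p a.1) a.2) =
        dg fun b => if b then r else 1 - r := by
      have e0 : γ * ν = ∑ a, γ * ν * q a := by rw [← Finset.mul_sum, hs, mul_one]
      have e1 : r = ∑ a, q a * ((1 - γ) * p a + γ * ν) := by
        rw [hr]
        conv_lhs => rw [e0, Finset.mul_sum, ← Finset.sum_add_distrib]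
        exact Finset.sum_congr rfl fun a _ => by ring
      have e2 : 1 - r = ∑ a, q a * (1 - ((1 - γ) * p a + γ * ν)) := by
        conv_lhs => rw [← hs, e1, ← Finset.sum_sub_distrib]
        exact Finset.sum_congr rfl fun a _ => by ring
      ext s t
      rw [Matrix.sum_apply, Fintype.sum_prod_type, dg_apply]
      cases s <;> cases t
      · simp only [e2, if_true, Bool.false_eq_true, if_false, Complex.ofReal_sum]
        refine Finset.sum_congr rfl fun a _ => ?_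
        simp [gadMap, pureSt_ff (hp a), pureSt_tt (hp a)]; ring
      · refine Finset.sum_eq_zero fun a _ => ?_
        simp [gadMap, pureSt, vecMulVec_apply]
      · refine Finset.sum_eq_zero fun a _ => ?_
        simp [gadMap, pureSt, vecMulVec_apply]
      · simp only [if_true]
        rw [e1, Complex.ofReal_sum]
        refine Finset.sum_congr rfl fun a _ => ?_
        simp [gadMap, pureSt_ff (hp a), pureSt_tt (hp a)]; ring
    rw [this, vn_dg, Real.binEntropy_eq_negMulLog_add_negMulLog_one_sub]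
    simp
  · rw [Fintype.sum_prod_type]
    refine Finset.sum_congr rfl fun a _ => ?_
    simp only [vn_pure hγ hν (hp a), Fintype.sum_bool]; ring

lemma qt_kron (γ ν : ℝ) {Ψ : Matrix d d ℂ → Matrix e e ℂ} (h : Good Ψ) (A : Matrix Bool Bool ℂ)
    (B : Matrix d d ℂ) : qubitTensor (gadMap γ ν) Ψ (A ⊗ₖ B) = gadMap γ ν A ⊗ₖ Ψ B := by
  have hb : ∀ s t, block (A ⊗ₖ B) s t = A s t • B := fun s t => rfl
  ext ⟨s, i⟩ ⟨t, j⟩
  simp only [qubitTensor, of_apply, hb, h.lin.map_smul, kroneckerMap_apply, gadMap_apply γ ν A,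
    Finset.sum_mul, Matrix.smul_apply, smul_eq_mul, mul_assoc]

lemma prod_ens {γ ν : ℝ} (hγ : γ ∈ Set.Icc (0 : ℝ) 1) (hν : ν ∈ Set.Icc (0 : ℝ) 1)
    {Ψ : Matrix d d ℂ → Matrix e e ℂ} (h : Good Ψ) {m₁ : ℕ} {q₁ : Fin m₁ → ℝ}
    {ρ₁ : Fin m₁ → Matrix Bool Bool ℂ} {m₂ : ℕ} {q₂ : Fin m₂ → ℝ} {ρ₂ : Fin m₂ → Matrix d d ℂ}
    (h₁ : IsEnsemble q₁ ρ₁) (h₂ : IsEnsemble q₂ ρ₂) :
    ∃ (m : ℕ) (q : Fin m → ℝ) (ρ : Fin m → Matrix (Bool × d) (Bool × d) ℂ), IsEnsemble q ρ ∧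
      holevoInfo (qubitTensor (gadMap γ ν) Ψ) q ρ =
        holevoInfo (gadMap γ ν) q₁ ρ₁ + holevoInfo Ψ q₂ ρ₂ := by
  have g := good_gad hγ hν
  obtain ⟨m, q, ρ, he, hq⟩ := exists_ensemble (qubitTensor (gadMap γ ν) Ψ)
    (fun a : Fin m₁ × Fin m₂ => q₁ a.1 * q₂ a.2) (fun a => ρ₁ a.1 ⊗ₖ ρ₂ a.2)
    (fun a => mul_nonneg (h₁.1 _) (h₂.1 _))
    (by rw [Fintype.sum_prod_type, ← Finset.sum_mul_sum, h₁.2.1, h₂.2.1, one_mul])
    (fun a => density_kron (h₁.2.2 _) (h₂.2.2 _))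
  refine ⟨m, q, ρ, he, ?_⟩
  rw [hq, holevoInfo, holevoInfo]
  simp only [qt_kron γ ν h]
  have e1 : ∑ a : Fin m₁ × Fin m₂, ((q₁ a.1 * q₂ a.2 : ℝ) : ℂ) • (gadMap γ ν (ρ₁ a.1) ⊗ₖ Ψ (ρ₂ a.2)) =
      (∑ a, (q₁ a : ℂ) • gadMap γ ν (ρ₁ a)) ⊗ₖ (∑ a, (q₂ a : ℂ) • Ψ (ρ₂ a)) := by
    ext ⟨s, i⟩ ⟨t, j⟩
    simp only [Matrix.sum_apply, Matrix.smul_apply, kroneckerMap_apply, smul_eq_mul,
      Fintype.sum_prod_type, Finset.sum_mul_sum]
    exact Finset.sum_congr rfl fun a _ => Finset.sum_congr rfl fun b _ => by push_cast; ring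
  rw [e1, vn_kron (density_sum _ _ h₁.1 h₁.2.1 fun a => g.density (h₁.2.2 a))
    (density_sum _ _ h₂.1 h₂.2.1 fun a => h.density (h₂.2.2 a))]
  have e2 : ∑ a : Fin m₁ × Fin m₂, q₁ a.1 * q₂ a.2 * vnEntropy (gadMap γ ν (ρ₁ a.1) ⊗ₖ Ψ (ρ₂ a.2)) =
      ∑ a, q₁ a * vnEntropy (gadMap γ ν (ρ₁ a)) + ∑ a, q₂ a * vnEntropy (Ψ (ρ₂ a)) := by
    have : ∀ a : Fin m₁ × Fin m₂, q₁ a.1 * q₂ a.2 * vnEntropy (gadMap γ ν (ρ₁ a.1) ⊗ₖ Ψ (ρ₂ a.2)) =
        (q₁ a.1 * vnEntropy (gadMap γ ν (ρ₁ a.1))) * q₂ a.2 +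
          q₁ a.1 * (q₂ a.2 * vnEntropy (Ψ (ρ₂ a.2))) := fun a => by
      rw [vn_kron (g.density (h₁.2.2 _)) (h.density (h₂.2.2 _))]; ring
    simp only [this, Finset.sum_add_distrib, Fintype.sum_prod_type, ← Finset.sum_mul_sum, h₁.2.1,
      h₂.2.1, mul_one, one_mul]
  rw [e2]; ring

lemma power_succ (Φ : Matrix Bool Bool ℂ → Matrix Bool Bool ℂ) (n : ℕ)
    (M : Matrix (Fin (n + 1) → Bool) (Fin (n + 1) → Bool) ℂ) :
    (qubitPower (n + 1) Φ M).submatrix (Fin.consEquiv fun _ => Bool) (Fin.consEquiv fun _ => Bool) =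
      qubitTensor Φ (qubitPower n Φ)
        (M.submatrix (Fin.consEquiv fun _ => Bool) (Fin.consEquiv fun _ => Bool)) := by
  ext ⟨s, σ⟩ ⟨t, τ⟩
  simp only [qubitPower, qubitTensor, submatrix_apply, of_apply, block]
  rw [← Equiv.sum_comp (Fin.consEquiv fun _ => Bool), Fintype.sum_prod_type]
  refine Finset.sum_congr rfl fun s' _ => ?_
  simp only [Finset.mul_sum]
  conv_rhs => rw [Finset.sum_comm]
  refine Finset.sum_congr rfl fun σ' _ => ?_
  rw [← Equiv.sum_comp (Fin.consEquiv fun _ => Bool), Fintype.sum_prod_type]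
  refine Finset.sum_congr rfl fun t' _ => Finset.sum_congr rfl fun τ' _ => ?_
  simp [Fin.prod_univ_succ, Fin.consEquiv, mul_assoc]

lemma density_submatrix {n m : Type*} [Fintype n] [Fintype m] {A : Matrix n n ℂ}
    (hA : IsDensity A) (σ : m ≃ n) : IsDensity (A.submatrix σ σ) :=
  ⟨hA.1.submatrix σ, by rw [trace_submatrix_equiv, hA.2]⟩

lemma holevo_power_succ {γ ν : ℝ} (hγ : γ ∈ Set.Icc (0 : ℝ) 1) (hν : ν ∈ Set.Icc (0 : ℝ) 1)
    (n : ℕ) {m : ℕ} {q : Fin m → ℝ}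
    {ρ : Fin m → Matrix (Fin (n + 1) → Bool) (Fin (n + 1) → Bool) ℂ} (he : IsEnsemble q ρ) :
    holevoInfo (qubitPower (n + 1) (gadMap γ ν)) q ρ =
      holevoInfo (qubitTensor (gadMap γ ν) (qubitPower n (gadMap γ ν))) q
        fun a => (ρ a).submatrix (Fin.consEquiv fun _ => Bool) (Fin.consEquiv fun _ => Bool) := by
  have g := good_power hγ hν (n + 1)
  simp only [holevoInfo, ← power_succ]
  congr 1
  · rw [← vn_submatrix (density_sum _ _ he.1 he.2.1 fun a => g.density (he.2.2 a)).1.1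
      (Fin.consEquiv fun _ => Bool)]
    congr 1
    ext i j; simp [Matrix.sum_apply]
  · exact Finset.sum_congr rfl fun a _ => by rw [vn_submatrix (g.density (he.2.2 a)).1.1]

lemma vn_unique {n : Type*} [Fintype n] [DecidableEq n] [Unique n] {A : Matrix n n ℂ}
    (hA : IsDensity A) : vnEntropy A = 0 := by
  obtain ⟨U, l, hd⟩ := exists_diag hA.1.1
  have := hd.sum_one hA
  rw [Fintype.sum_unique] at this
  rw [hd.vn, Fintype.sum_unique, this, Real.negMulLog_one]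

lemma holevo_zero {γ ν : ℝ} (hγ : γ ∈ Set.Icc (0 : ℝ) 1) (hν : ν ∈ Set.Icc (0 : ℝ) 1)
    {m : ℕ} {q : Fin m → ℝ} {ρ : Fin m → Matrix (Fin 0 → Bool) (Fin 0 → Bool) ℂ}
    (he : IsEnsemble q ρ) : holevoInfo (qubitPower 0 (gadMap γ ν)) q ρ = 0 := by
  have g := good_power hγ hν 0
  rw [holevoInfo, vn_unique (density_sum _ _ he.1 he.2.1 fun a => g.density (he.2.2 a))]
  simp [fun a => vn_unique (g.density (he.2.2 a))]

lemma gadRate_eq (γ ν p : ℝ) :
    gadRate γ ν p = Real.binEntropy ((1 - γ) * p + γ * ν) - F (vv γ ν p) := rfl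

theorem power_upper {γ ν : ℝ} (hγ : γ ∈ Set.Icc (0 : ℝ) 1) (hν : ν ∈ Set.Icc (0 : ℝ) 1) {R : ℝ}
    (hR : ∀ p ∈ Set.Icc (0 : ℝ) 1, gadRate γ ν p ≤ R) (n : ℕ) :
    ∀ (m : ℕ) (q : Fin m → ℝ) (ρ : Fin m → Matrix (Fin n → Bool) (Fin n → Bool) ℂ),
      IsEnsemble q ρ → holevoInfo (qubitPower n (gadMap γ ν)) q ρ ≤ n * R := by
  induction n with
  | zero => intro m q ρ he; simp [holevo_zero hγ hν he]
  | succ n ih =>
    intro m q ρ he
    rw [holevo_power_succ hγ hν n he]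
    have he' : IsEnsemble q fun a =>
        (ρ a).submatrix (Fin.consEquiv fun _ => Bool) (Fin.consEquiv fun _ => Bool) :=
      ⟨he.1, he.2.1, fun a => density_submatrix (he.2.2 a) _⟩
    refine le_of_forall_pos_le_add fun ε hε => ?_
    obtain ⟨m₂, q₂, ρ₂, he₂, hle⟩ := upper hγ hν (good_power hγ hν n) he' hε
    have h1 := ih m₂ q₂ ρ₂ he₂
    have h2 := F_jensen hγ hν q _ he.1 he.2.1 fun a => pop_mem (he'.2.2 a)
    have h3 := hR _ (by
      simpa using (convex_Icc (0 : ℝ) 1).sum_mem (t := Finset.univ) (fun a _ => he.1 a) he.2.1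
        (fun a _ => pop_mem (he'.2.2 a)))
    rw [gadRate_eq] at h3
    push_cast
    linarith

theorem power_lower {γ ν : ℝ} (hγ : γ ∈ Set.Icc (0 : ℝ) 1) (hν : ν ∈ Set.Icc (0 : ℝ) 1) {p : ℝ}
    (hp : p ∈ Set.Icc (0 : ℝ) 1) (n : ℕ) :
    ∃ (m : ℕ) (q : Fin m → ℝ) (ρ : Fin m → Matrix (Fin n → Bool) (Fin n → Bool) ℂ),
      IsEnsemble q ρ ∧ n * gadRate γ ν p ≤ holevoInfo (qubitPower n (gadMap γ ν)) q ρ := by
  induction n with
  | zero =>
    have he : IsEnsemble (fun _ : Fin 1 => (1 : ℝ))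
        (fun _ => (1 : Matrix (Fin 0 → Bool) (Fin 0 → Bool) ℂ)) :=
      ⟨fun _ => zero_le_one, by simp, fun _ => ⟨PosSemidef.one, by simp⟩⟩
    exact ⟨1, _, _, he, by simp [holevo_zero hγ hν he]⟩
  | succ n ih =>
    obtain ⟨m₂, q₂, ρ₂, he₂, h₂⟩ := ih
    obtain ⟨m₁, q₁, ρ₁, he₁, h₁⟩ := exists_qubit_ens hγ hν (fun _ : Unit => (1 : ℝ)) (fun _ => p)
      (fun _ => zero_le_one) (by simp) fun _ => hp
    obtain ⟨m, q, ρ, he, h⟩ := prod_ens hγ hν (good_power hγ hν n) he₁ he₂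
    have he' : IsEnsemble q fun a => (ρ a).submatrix (Fin.consEquiv fun _ => Bool).symm
        (Fin.consEquiv fun _ => Bool).symm :=
      ⟨he.1, he.2.1, fun a => density_submatrix (he.2.2 a) _⟩
    refine ⟨m, q, _, he', ?_⟩
    rw [holevo_power_succ hγ hν n he']
    simp only [submatrix_submatrix, Equiv.symm_comp_self, submatrix_id_id]
    simp only [Finset.univ_unique, Finset.sum_singleton, one_mul, ← gadRate_eq] at h₁
    rw [h, h₁]
    push_cast
    linarith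

end Crest.Agent.R341
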