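import Crest.Agent.R341.Step

/-! The maximum principle along the measurement flow. -/

set_option autoImplicit false
set_option linter.unusedSectionVars false

open Matrix Crest.Quantum Filter Topology
open scoped ComplexOrder ComplexConjugate
open Crest.Agent.VN

namespace Crest.Agent.R341

variable {e : Type*} [Fintype e] [DecidableEq e]

lemma F_zero : F 0 = 0 := by simp [F]

lemma om_trace (A B C : Matrix e e ℂ) (x : ℂ) :
    (om A B C x).trace.re = A.trace.re + 2 * (x * conj B.trace).re + Complex.normSq x * C.trace.re := by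
  simp only [om, trace_add, trace_smul, trace_conjTranspose, smul_eq_mul, Complex.add_re,
    RCLike.star_def, Complex.mul_re, Complex.conj_re, Complex.conj_im, Complex.ofReal_re,
    Complex.ofReal_im]
  ring

lemma om_om (A B C : Matrix e e ℂ) (hC : Cᴴ = C) (x z : ℂ) (τ : ℝ) :
    om (om A B C x) ((τ : ℂ) • (B + x • C)) (((τ ^ 2 : ℝ) : ℂ) • C) z = om A B C (x + z * τ) := by
  simp only [om, conjTranspose_smul, conjTranspose_add, hC, Complex.normSq_eq_conj_mul_self,
    RCLike.star_def, Complex.conj_ofReal, map_add, map_mul, Complex.ofReal_pow]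
  module

lemma density_of_re {n : Type*} [Fintype n] {A : Matrix n n ℂ} (hA : A.PosSemidef)
    (h : A.trace.re = 1) : IsDensity A :=
  ⟨hA, Complex.ext h (Complex.nonneg_iff.mp hA.trace_nonneg).2.symm⟩

theorem flow {γ η p : ℝ} (hγ : 0 < γ) (hη : 0 < η) (hγη : γ + η = 1) {A B C : Matrix e e ℂ}
    (hM : (fromBlocks A B Bᴴ C).PosSemidef) (hCd : C.PosDef) (hA : A.trace.re = 1 - p)
    (hC : C.trace.re = p) (hp : 0 < p) (hv : 4 * (γ * η * p ^ 2) < 1) (a0 c0 : ℝ) (b0 : ℂ)
    (hH : ∀ x : ℂ, (om A B C x).trace.re = 1 →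
      a0 + (x * b0).re + Complex.normSq x * c0 ≤ vnEntropy (om A B C x)) :
    F (γ * η * p ^ 2) + a0 + c0 ≤ vnEntropy (adOut γ η A B C) := by
  have hCh : Cᴴ = C := hCd.1
  let ρ : ℂ × ℝ → Matrix (e ⊕ e) (e ⊕ e) ℂ := fun y =>
    adOut γ η (om A B C y.1) ((y.2 : ℂ) • (B + y.1 • C)) (((y.2 ^ 2 : ℝ) : ℂ) • C)
  let K : Set (ℂ × ℝ) := {y | y.2 ∈ Set.Icc (0 : ℝ) 1 ∧ (om A B C y.1).trace.re + y.2 ^ 2 * p = 1}
  have com : Continuous fun x : ℂ => om A B C x := by
    unfold om
    have := Complex.continuous_normSq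
    fun_prop
  have cρ : Continuous ρ := by
    unfold ρ adOut
    refine Continuous.matrix_fromBlocks ?_ ?_ ?_ ?_ <;> fun_prop
  have hKc : IsCompact K := by
    have hcl : IsClosed K := by
      refine IsClosed.inter (isClosed_Icc.preimage continuous_snd) (isClosed_eq ?_ continuous_const)
      exact (Complex.continuous_re.comp (com.comp continuous_fst).matrix_trace).add (by fun_prop)
    refine ((isCompact_closedBall (0 : ℂ) (1 + 2 * ‖B.trace‖ / p)).prod
      (isCompact_Icc (a := (0 : ℝ)) (b := 1))).of_isClosed_subset hcl ?_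
    rintro ⟨x, τ⟩ ⟨h1, h2⟩
    refine ⟨?_, h1⟩
    simp only [mem_closedBall_zero_iff]
    by_contra hx
    push Not at hx
    simp only [om_trace, hA, hC] at h2
    have h3 : |(x * conj B.trace).re| ≤ ‖x‖ * ‖B.trace‖ := by
      simpa using Complex.abs_re_le_norm (x * conj B.trace)
    have h4 := (abs_le.mp h3).1
    rw [Complex.normSq_eq_norm_sq] at h2
    have h5 : 0 ≤ 2 * ‖B.trace‖ / p := by positivity
    have h6 : p + 2 * ‖B.trace‖ < ‖x‖ * p := by
      have := mul_lt_mul_of_pos_right hx hp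
      rwa [add_mul, one_mul, div_mul_cancel₀ _ hp.ne'] at this
    have h7 : 0 ≤ τ ^ 2 * p := by positivity
    have h8 : 1 < ‖x‖ := by linarith
    nlinarith [mul_lt_mul_of_pos_left h6 (show 0 < ‖x‖ by linarith)]
  have hden : ∀ y ∈ K, IsDensity (ρ y) := by
    rintro ⟨x, τ⟩ ⟨-, h2⟩
    refine density_of_re (adOut_psd hγ.le hη.le (psd_move hM x τ)) ?_
    simp only [ρ]
    rw [adOut_trace hγη, Complex.add_re, trace_smul, smul_eq_mul, Complex.re_ofReal_mul, hC]
    exact h2
  have h01 : ((0 : ℂ), (1 : ℝ)) ∈ K := by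
    refine ⟨⟨zero_le_one, le_rfl⟩, ?_⟩
    simp [om_trace, hA]
  have ρ01 : ρ (0, 1) = adOut γ η A B C := by simp [ρ, om]
  refine le_of_forall_pos_le_add fun ε hε => ?_
  let G : ℂ × ℝ → ℝ := fun y => vnEntropy (ρ y) - F (γ * η * (y.2 ^ 2 * p) ^ 2) -
    (a0 + (y.1 * b0).re + (Complex.normSq y.1 + y.2 ^ 2) * c0) + ε * y.2 ^ 2
  have cG : ContinuousOn G K := by
    have c1 : ContinuousOn (fun y => vnEntropy (ρ y)) K :=
      continuousOn_vn.comp cρ.continuousOn hden
    have c2 : Continuous fun y : ℂ × ℝ => F (γ * η * (y.2 ^ 2 * p) ^ 2) :=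
      continuous_F.comp (by fun_prop)
    have := Complex.continuous_normSq
    exact ((c1.sub c2.continuousOn).sub (Continuous.continuousOn (by fun_prop))).add
      (Continuous.continuousOn (by fun_prop))
  obtain ⟨⟨x, τ⟩, hy, hmin⟩ := hKc.exists_isMinOn ⟨_, h01⟩ cG
  have hτ0 : τ = 0 := by
    by_contra hne
    have hτ : 0 < τ := lt_of_le_of_ne hy.1.1 (Ne.symm hne)
    have hτ1 : τ ≤ 1 := hy.1.2
    have hτ2 : τ ^ 2 ≤ 1 := by nlinarith
    have hy2 : (om A B C x).trace.re + τ ^ 2 * p = 1 := hy.2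
    have hv' : 4 * (γ * η * (τ ^ 2 * p) ^ 2) < 1 := by
      have : (τ ^ 2 * p) ^ 2 ≤ p ^ 2 := by
        gcongr
        nlinarith
      have := mul_le_mul_of_nonneg_left this (show 0 ≤ γ * η by positivity)
      linarith
    obtain ⟨z, θ, h1, h2, h3, h4, h5⟩ := step hγ hη hγη (psd_move hM x τ)
      (hCd.smul (by exact_mod_cast (by positivity))) (p := τ ^ 2 * p) (by linarith)
      (by rw [trace_smul, smul_eq_mul, Complex.re_ofReal_mul, hC]) (by positivity) hv'
      (show 0 < ε * τ ^ 2 / 2 by positivity)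
    have hρ : ∀ w : ℂ, adOut γ η (om (om A B C x) ((τ : ℂ) • (B + x • C)) (((τ ^ 2 : ℝ) : ℂ) • C) w)
        ((θ : ℂ) • ((τ : ℂ) • (B + x • C) + w • ((τ ^ 2 : ℝ) : ℂ) • C))
        (((θ ^ 2 : ℝ) : ℂ) • ((τ ^ 2 : ℝ) : ℂ) • C) = ρ (x + w * τ, θ * τ) := by
      intro w
      simp only [ρ]
      rw [om_om A B C hCh]
      push_cast
      congr 1 <;> module
    have hK : ∀ w : ℂ, Complex.normSq w = Complex.normSq z →
        (w * conj (((τ : ℂ) • (B + x • C)).trace)).re = 0 → (x + w * τ, θ * τ) ∈ K := by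
      intro w hw1 hw2
      refine ⟨⟨by positivity, by nlinarith⟩, ?_⟩
      simp only
      rw [← om_om A B C hCh, om_trace, hw2, hw1, trace_smul, smul_eq_mul, Complex.re_ofReal_mul, hC]
      linear_combination hy2 + τ ^ 2 * p * h3
    rw [hρ, hρ] at h5
    have m1 := hmin (hK z rfl h4)
    have m2 := hmin (hK (-z) (by simp) (by rw [neg_mul, Complex.neg_re, h4, neg_zero]))
    simp only [Set.mem_setOf_eq, G] at m1 m2
    have n1 : Complex.normSq (x + z * τ) + Complex.normSq (x + -z * τ) =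
        2 * Complex.normSq x + 2 * (Complex.normSq z * τ ^ 2) := by
      simp only [Complex.normSq_apply, Complex.add_re, Complex.add_im, Complex.mul_re,
        Complex.mul_im, Complex.neg_re, Complex.neg_im, Complex.ofReal_re, Complex.ofReal_im]
      ring
    have n2 : ((x + z * τ) * b0).re + ((x + -z * τ) * b0).re = 2 * (x * b0).re := by
      rw [← Complex.add_re, show (x + z * τ) * b0 + (x + -z * τ) * b0 = x * b0 + x * b0 by ring,
        Complex.add_re]; ring
    have n3 : (θ * τ) ^ 2 * p = θ ^ 2 * (τ ^ 2 * p) := by ring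
    rw [n3] at m1 m2
    have n4 : (Complex.normSq (x + z * τ) + (θ * τ) ^ 2) * c0 +
        (Complex.normSq (x + -z * τ) + (θ * τ) ^ 2) * c0 = 2 * ((Complex.normSq x + τ ^ 2) * c0) := by
      linear_combination c0 * n1 + 2 * τ ^ 2 * c0 * h3
    have n5 : 0 < ε * τ ^ 2 * (1 - θ ^ 2) := by
      have : 0 < 1 - θ ^ 2 := by nlinarith
      positivity
    change vnEntropy (ρ (x + z * τ, θ * τ)) / 2 + vnEntropy (ρ (x + -z * τ, θ * τ)) / 2 - _ ≤
      vnEntropy (ρ (x, τ)) - _ + _ at h5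
    nlinarith
  subst hτ0
  have m := hmin h01
  simp only [Set.mem_setOf_eq, G, ρ01] at m
  have hρ0 : ρ (x, 0) = fromBlocks (om A B C x) 0 0 0 := by simp [ρ, adOut]
  have hx : (om A B C x).trace.re = 1 := by simpa using hy.2
  have hom : (om A B C x).IsHermitian := (psd_block11 (psd_move hM x 0)).1
  rw [hρ0, vn_fromBlocks_zero hom] at m
  have := hH x hx
  simp [F_zero] at m
  simp only [Complex.mul_re] at this
  linarith

end Crest.Agent.R341
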