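import Crest.Agent.R341.Flow

/-! Decomposition of the generalized amplitude damping map into two scaled pure damping maps. -/

set_option autoImplicit false
set_option linter.unusedSectionVars false

open Matrix Crest.Quantum Filter Topology
open scoped ComplexOrder ComplexConjugate
open Crest.Agent.VN

namespace Crest.Agent.R341

variable {e : Type*} [Fintype e] [DecidableEq e]

/-- homogeneous conditional state -/
noncomputable def om2 (A B C : Matrix e e ℂ) (y x : ℂ) : Matrix e e ℂ :=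
  ((Complex.normSq y : ℝ) : ℂ) • A + (x * conj y) • Bᴴ + (conj x * y) • B +
    ((Complex.normSq x : ℝ) : ℂ) • C

lemma psd_swap {A B C : Matrix e e ℂ} (hM : (fromBlocks A B Bᴴ C).PosSemidef) :
    (fromBlocks C Bᴴ Bᴴᴴ A).PosSemidef := by
  have := hM.submatrix Sum.swap
  rwa [fromBlocks_submatrix_sum_swap_sum_swap, ← conjTranspose_conjTranspose B,
    conjTranspose_conjTranspose Bᴴ] at this

lemma vn_swap {A B C D : Matrix e e ℂ} (hM : (fromBlocks A B C D).IsHermitian) :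
    vnEntropy (fromBlocks D C B A) = vnEntropy (fromBlocks A B C D) := by
  rw [← vn_submatrix hM (Equiv.sumComm e e)]
  congr 1
  exact (fromBlocks_submatrix_sum_swap_sum_swap A B C D).symm

lemma psd_scale {A B C : Matrix e e ℂ} (hM : (fromBlocks A B Bᴴ C).PosSemidef) (a c : ℝ) :
    (fromBlocks (((a ^ 2 : ℝ) : ℂ) • A) (((a * c : ℝ) : ℂ) • B) (((a * c : ℝ) : ℂ) • B)ᴴ
      (((c ^ 2 : ℝ) : ℂ) • C)).PosSemidef := by
  have := hM.mul_mul_conjTranspose_same
    (fromBlocks ((a : ℂ) • (1 : Matrix e e ℂ)) 0 0 ((c : ℂ) • (1 : Matrix e e ℂ)))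
  convert this using 1
  simp only [fromBlocks_conjTranspose, fromBlocks_multiply, conjTranspose_smul, conjTranspose_one,
    conjTranspose_zero, Matrix.mul_smul, Matrix.smul_mul, Matrix.one_mul, Matrix.mul_one,
    Matrix.mul_zero, Matrix.zero_mul, zero_add, add_zero, RCLike.star_def, Complex.conj_ofReal]
  push_cast
  congr 1 <;> module

lemma half {η p q v : ℝ} (hη : 0 < η) (hp : 0 < p) (hq : 0 < q) (hv0 : 0 < v) (hv : 4 * v < 1)
    (hvq : v = q * (1 - q) - η * (p * (1 - p))) {A B C : Matrix e e ℂ}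
    (hM : (fromBlocks A B Bᴴ C).PosSemidef) (hCd : C.PosDef) (hA : A.trace.re = 1 - p)
    (hC : C.trace.re = p) (a0 c0 : ℝ) (b0 : ℂ)
    (hH : ∀ y x : ℂ, (om2 A B C y x).trace.re = 1 →
      Complex.normSq y * a0 + (x * conj y * b0).re + Complex.normSq x * c0 ≤
        vnEntropy (om2 A B C y x)) :
    (fromBlocks (((η * p / q : ℝ) : ℂ) • A + ((v / (p * q) : ℝ) : ℂ) • C) (((√η : ℝ) : ℂ) • B)
        (((√η : ℝ) : ℂ) • Bᴴ) (((q / p : ℝ) : ℂ) • C)).PosSemidef ∧
    F v + η * p / q * a0 + (v / (p * q) + q / p) * c0 ≤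
      vnEntropy (fromBlocks (((η * p / q : ℝ) : ℂ) • A + ((v / (p * q) : ℝ) : ℂ) • C)
        (((√η : ℝ) : ℂ) • B) (((√η : ℝ) : ℂ) • Bᴴ) (((q / p : ℝ) : ℂ) • C)) := by
  set k := v / (p * q) + q / p with hk
  have kp : 0 < k := by positivity
  set a := √(η * p / q) with ha
  set c := √k with hc
  have aa : a ^ 2 = η * p / q := Real.sq_sqrt (by positivity)
  have cc : c ^ 2 = k := Real.sq_sqrt kp.le
  have cp : 0 < c := Real.sqrt_pos.mpr kp
  have hM' := psd_scale hM a c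
  have e1 : adOut (v / (p * q) / k) (q / p / k) (((a ^ 2 : ℝ) : ℂ) • A) (((a * c : ℝ) : ℂ) • B)
      (((c ^ 2 : ℝ) : ℂ) • C) =
      fromBlocks (((η * p / q : ℝ) : ℂ) • A + ((v / (p * q) : ℝ) : ℂ) • C)
        (((√η : ℝ) : ℂ) • B) (((√η : ℝ) : ℂ) • Bᴴ) (((q / p : ℝ) : ℂ) • C) := by
    have s1 : √(q / p / k) * (a * c) = √η := by
      rw [ha, hc, ← Real.sqrt_mul (by positivity), ← Real.sqrt_mul (by positivity)]
      congr 1; field_simp
    have s2 : v / (p * q) / k * c ^ 2 = v / (p * q) := by rw [cc]; field_simp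
    have s3 : q / p / k * c ^ 2 = q / p := by rw [cc]; field_simp
    simp only [adOut, conjTranspose_smul, smul_smul, RCLike.star_def, Complex.conj_ofReal,
      ← Complex.ofReal_mul, s1, s2, s3, aa]
  have g1 : 0 < v / (p * q) / k := by positivity
  have g2 : 0 < q / p / k := by positivity
  have g3 : v / (p * q) / k + q / p / k = 1 := by rw [← add_div, ← hk, div_self kp.ne']
  have g4 : v / (p * q) / k * (q / p / k) * (k * p) ^ 2 = v := by field_simp
  refine ⟨e1 ▸ adOut_psd g1.le g2.le hM', ?_⟩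
  have := flow g1 g2 g3 hM' (p := k * p) (hCd.smul (by exact_mod_cast (by positivity)))
    (by
      rw [trace_smul, smul_eq_mul, Complex.re_ofReal_mul, hA, aa, hk, hvq]; field_simp; ring)
    (by rw [trace_smul, smul_eq_mul, Complex.re_ofReal_mul, hC, cc]) (by positivity)
    (by rw [g4]; exact hv) (a ^ 2 * a0) (c ^ 2 * c0) ((a * c : ℝ) * b0) (fun x hx => by
      have e2 : om (((a ^ 2 : ℝ) : ℂ) • A) (((a * c : ℝ) : ℂ) • B) (((c ^ 2 : ℝ) : ℂ) • C) x =
          om2 A B C a (x * c) := by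
        simp only [om, om2, conjTranspose_smul, RCLike.star_def, Complex.conj_ofReal, map_mul,
          Complex.normSq_ofReal]
        push_cast
        module
      rw [e2] at hx ⊢
      refine le_trans (le_of_eq ?_) (hH _ _ hx)
      simp only [map_mul, Complex.normSq_ofReal, Complex.conj_ofReal]
      rw [show x * (((a * c : ℝ) : ℂ) * b0) = x * c * a * b0 by push_cast; ring]
      ring)
  rw [g4, e1, aa, cc] at this
  exact this

/-- output of the generalized amplitude damping map on a block matrix -/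
noncomputable def gadOut (γ ν : ℝ) (A B B' C : Matrix e e ℂ) : Matrix (e ⊕ e) (e ⊕ e) ℂ :=
  fromBlocks (((1 - γ * ν : ℝ) : ℂ) • A + ((γ * (1 - ν) : ℝ) : ℂ) • C) (((√(1 - γ) : ℝ) : ℂ) • B)
    (((√(1 - γ) : ℝ) : ℂ) • B') (((γ * ν : ℝ) : ℂ) • A + ((1 - γ + γ * ν : ℝ) : ℂ) • C)

lemma gadOut_psd {γ ν : ℝ} (hγ : γ ∈ Set.Icc (0 : ℝ) 1) (hν : ν ∈ Set.Icc (0 : ℝ) 1)
    {A B C : Matrix e e ℂ} (hM : (fromBlocks A B Bᴴ C).PosSemidef) :
    (gadOut γ ν A B Bᴴ C).PosSemidef := by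
  have hη : 0 ≤ 1 - γ := by linarith [hγ.2]
  have h1 := psd_rsmul (adOut_psd hγ.1 hη hM) (show 0 ≤ 1 - ν by linarith [hν.2])
  have h2 := psd_rsmul ((adOut_psd hγ.1 hη (psd_swap hM)).submatrix Sum.swap) hν.1
  convert h1.add h2 using 1
  simp only [gadOut, adOut, fromBlocks_submatrix_sum_swap_sum_swap, fromBlocks_smul,
    fromBlocks_add, conjTranspose_conjTranspose]
  push_cast
  congr 1 <;> module

lemma gadOut_trace (γ ν : ℝ) (A B B' C : Matrix e e ℂ) :
    (gadOut γ ν A B B' C).trace = A.trace + C.trace := by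
  simp only [gadOut, trace_fromBlocks', trace_add, trace_smul, smul_eq_mul]
  push_cast; ring

theorem gad_interior {γ ν p : ℝ} (hγ : γ ∈ Set.Ioo (0 : ℝ) 1) (hν : ν ∈ Set.Ioo (0 : ℝ) 1)
    (hp : p ∈ Set.Ioo (0 : ℝ) 1) {A B C : Matrix e e ℂ}
    (hM : (fromBlocks A B Bᴴ C).PosSemidef) (hAd : A.PosDef) (hCd : C.PosDef)
    (hA : A.trace.re = 1 - p) (hC : C.trace.re = p) (a0 c0 : ℝ) (b0 : ℂ)
    (hH : ∀ y x : ℂ, (om2 A B C y x).trace.re = 1 →
      Complex.normSq y * a0 + (x * conj y * b0).re + Complex.normSq x * c0 ≤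
        vnEntropy (om2 A B C y x)) :
    F (vv γ ν p) + a0 + c0 ≤ vnEntropy (gadOut γ ν A B Bᴴ C) := by
  obtain ⟨g0, g1⟩ := hγ
  obtain ⟨n0, n1⟩ := hν
  obtain ⟨p0, p1⟩ := hp
  have hη : 0 < 1 - γ := by linarith
  have hν' : 0 < 1 - ν := by linarith
  have hp' : 0 < 1 - p := by linarith
  set q := (1 - γ) * p + γ * ν with hq
  have q0 : 0 < q := by positivity
  have q1 : 0 < 1 - q := by
    have : 1 - q = (1 - γ) * (1 - p) + γ * (1 - ν) := by rw [hq]; ring
    rw [this]; positivity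
  set v := vv γ ν p with hv
  have v0 : 0 < v := by rw [hv, vv]; positivity
  have hvq : v = q * (1 - q) - (1 - γ) * (p * (1 - p)) := vv_eq γ ν p
  have v1 : 4 * v < 1 := by
    have : 0 < (1 - γ) * (p * (1 - p)) := by positivity
    nlinarith [sq_nonneg (1 - 2 * q)]
  obtain ⟨d1, d2⟩ := half hη p0 q0 v0 v1 hvq hM hCd hA hC a0 c0 b0 hH
  obtain ⟨u1, u2⟩ := half (p := 1 - p) (q := 1 - q) hη hp' q1 v0 v1 (by rw [hvq]; ring)
    (psd_swap hM) hAd (by rw [hC]; ring) hA c0 a0 (conj b0) (fun y x hx => by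
      have e2 : om2 C Bᴴ A y x = om2 A B C x y := by
        simp only [om2, conjTranspose_conjTranspose]; module
      rw [e2] at hx ⊢
      refine le_trans (le_of_eq ?_) (hH _ _ hx)
      rw [← Complex.conj_re (y * conj x * b0)]
      simp only [map_mul, Complex.conj_conj]
      rw [mul_comm (conj y) x]; ring)
  rw [conjTranspose_conjTranspose] at u1 u2
  rw [← vn_swap u1.1] at u2
  have u1' := u1.submatrix Sum.swap
  rw [fromBlocks_submatrix_sum_swap_sum_swap] at u1'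
  set μ := γ * (1 - ν) * p * q / v with hμ
  set μ' := γ * ν * (1 - p) * (1 - q) / v with hμ'
  have hv' : v = γ * ν * (1 - ν) + γ * (1 - γ) * (p - ν) ^ 2 := rfl
  have m1 : μ + μ' = 1 := by
    rw [hμ, hμ', ← add_div, div_eq_one_iff_eq v0.ne', hv', hq]; ring
  have k1 : μ * ((1 - γ) * p / q) + μ' * ((1 - q) / (1 - p)) = 1 - γ * ν := by
    rw [hμ, hμ']; field_simp; rw [hv', hq]; ring
  have k2 : μ * (v / (p * q)) = γ * (1 - ν) := by rw [hμ]; field_simp
  have k3 : μ' * (v / ((1 - p) * (1 - q))) = γ * ν := by rw [hμ']; field_simp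
  have k4 : μ * (q / p) + μ' * ((1 - γ) * (1 - p) / (1 - q)) = 1 - γ + γ * ν := by
    rw [hμ, hμ']; field_simp; rw [hv', hq]; ring
  have key := vn_concave2 d1 u1' (a := μ) (b := μ') (by positivity) (by positivity) m1
  have e3 : gadOut γ ν A B Bᴴ C =
      (μ : ℂ) • fromBlocks ((((1 - γ) * p / q : ℝ) : ℂ) • A + ((v / (p * q) : ℝ) : ℂ) • C)
        (((√(1 - γ) : ℝ) : ℂ) • B) (((√(1 - γ) : ℝ) : ℂ) • Bᴴ) (((q / p : ℝ) : ℂ) • C) +
      (μ' : ℂ) • fromBlocks ((((1 - q) / (1 - p) : ℝ) : ℂ) • A) (((√(1 - γ) : ℝ) : ℂ) • B)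
        (((√(1 - γ) : ℝ) : ℂ) • Bᴴ)
        ((((1 - γ) * (1 - p) / (1 - q) : ℝ) : ℂ) • C + ((v / ((1 - p) * (1 - q)) : ℝ) : ℂ) • A) := by
    have m1' : (μ : ℂ) + μ' = 1 := by exact_mod_cast m1
    rw [gadOut, ← k4, ← k2]
    conv_lhs => rw [← k1]; arg 4; arg 1; rw [← k3]
    simp only [fromBlocks_smul, fromBlocks_add, Complex.ofReal_add, Complex.ofReal_mul]
    rw [fromBlocks_inj]
    refine ⟨by module, ?_, ?_, by module⟩
    · match_scalars; linear_combination (-((√(1 - γ) : ℝ) : ℂ)) * m1'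
    · match_scalars; linear_combination (-((√(1 - γ) : ℝ) : ℂ)) * m1'
  rw [e3]
  refine le_trans ?_ key
  have f1 := mul_le_mul_of_nonneg_left d2 (show 0 ≤ μ by positivity)
  have f2 := mul_le_mul_of_nonneg_left u2 (show 0 ≤ μ' by positivity)
  have f3 : μ * (F v + (1 - γ) * p / q * a0 + (v / (p * q) + q / p) * c0) +
      μ' * (F v + (1 - γ) * (1 - p) / (1 - q) * c0 +
        (v / ((1 - p) * (1 - q)) + (1 - q) / (1 - p)) * a0) = F v + a0 + c0 := by
    linear_combination F v * m1 + a0 * k1 + c0 * k2 + a0 * k3 + c0 * k4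
  linarith

end Crest.Agent.R341
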