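import Crest.Agent.R341.Main

/-! Holevo information bounds. -/

set_option autoImplicit false
set_option linter.unusedSectionVars false

open Matrix Crest.Quantum Filter Topology Crest.MathPhysics.AmpDamp
open scoped ComplexOrder ComplexConjugate Kronecker
open Crest.Agent.VN

namespace Crest.Agent.R341

variable {d e : Type*} [Fintype d] [DecidableEq d] [Fintype e] [DecidableEq e]

lemma convex_density : Convex ℝ {ω : Matrix d d ℂ | IsDensity ω} := by
  intro A hA B hB a b ha hb hab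
  have := density_mix hA hB (κ := b) ⟨hb, by linarith⟩
  rwa [show 1 - b = a by linarith] at this

lemma density_sum {ι : Type*} [Fintype ι] (q : ι → ℝ) (ρ : ι → Matrix d d ℂ) (hq : ∀ a, 0 ≤ q a)
    (hs : ∑ a, q a = 1) (hρ : ∀ a, IsDensity (ρ a)) : IsDensity (∑ a, (q a : ℂ) • ρ a) :=
  convex_density.sum_mem (t := Finset.univ) (fun a _ => hq a) hs fun a _ => hρ a

lemma Good.map_sum {Ψ : Matrix d d ℂ → Matrix e e ℂ} (h : Good Ψ) {ι : Type*} [Fintype ι]
    (q : ι → ℝ) (ρ : ι → Matrix d d ℂ) : Ψ (∑ a, (q a : ℂ) • ρ a) = ∑ a, (q a : ℂ) • Ψ (ρ a) := by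
  have := _root_.map_sum (IsLinearMap.mk' Ψ h.lin) (fun a => (q a : ℂ) • ρ a) Finset.univ
  simp only [IsLinearMap.mk'_apply, h.lin.map_smul] at this
  exact this

/-- ensembles indexed by an arbitrary finite type -/
lemma exists_ensemble {ι : Type*} [Fintype ι] (Φ : Matrix d d ℂ → Matrix e e ℂ) (q : ι → ℝ)
    (ρ : ι → Matrix d d ℂ) (hq : ∀ a, 0 ≤ q a) (hs : ∑ a, q a = 1) (hρ : ∀ a, IsDensity (ρ a)) :
    ∃ (m : ℕ) (q' : Fin m → ℝ) (ρ' : Fin m → Matrix d d ℂ), IsEnsemble q' ρ' ∧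
      holevoInfo Φ q' ρ' = vnEntropy (∑ a, (q a : ℂ) • Φ (ρ a)) - ∑ a, q a * vnEntropy (Φ (ρ a)) := by
  let σ := (Fintype.equivFin ι).symm
  refine ⟨_, q ∘ σ, ρ ∘ σ, ⟨fun a => hq _, ?_, fun a => hρ _⟩, ?_⟩
  · rw [← hs]; exact Equiv.sum_comp σ q
  · rw [holevoInfo]
    congr 1
    · congr 1
      exact Equiv.sum_comp σ fun a => (q a : ℂ) • Φ (ρ a)
    · exact Equiv.sum_comp σ fun a => q a * vnEntropy (Φ (ρ a))

lemma roof {Ψ : Matrix d d ℂ → Matrix e e ℂ} (h : Good Ψ) {ω0 : Matrix d d ℂ} (hω : IsDensity ω0)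
    (s0 : ℝ) (hs : ∀ Λ : Matrix d d ℂ →ₗ[ℝ] ℝ, (∀ ω, IsDensity ω → Λ ω ≤ vnEntropy (Ψ ω)) →
      Λ ω0 ≤ s0) {ε : ℝ} (hε : 0 < ε) :
    ∃ (m : ℕ) (q : Fin m → ℝ) (ρ : Fin m → Matrix d d ℂ), IsEnsemble q ρ ∧
      vnEntropy (Ψ ω0) - s0 - ε ≤ holevoInfo Ψ q ρ := by
  haveI : LocallyConvexSpace ℝ (Matrix d d ℂ) := inferInstanceAs (LocallyConvexSpace ℝ (d → d → ℂ))
  let T : Set (Matrix d d ℂ × ℝ) := {y | IsDensity y.1 ∧ vnEntropy (Ψ y.1) ≤ y.2}
  have hmem : (ω0, s0) ∈ closure (convexHull ℝ T) := by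
    by_contra hn
    obtain ⟨f, u, h1, h2⟩ := geometric_hahn_banach_point_closed (convex_convexHull ℝ T).closure
      isClosed_closure hn
    have hT : ∀ y ∈ T, u < f y := fun y hy => h2 y (subset_closure (subset_convexHull ℝ T hy))
    have hf : ∀ (ω : Matrix d d ℂ) (s : ℝ), f (ω, s) = f (ω, 0) + s * f (0, 1) := fun ω s => by
      rw [← smul_eq_mul, ← map_smul, ← map_add]; simp
    have h3 := hT (ω0, max (vnEntropy (Ψ ω0)) s0) ⟨hω, le_max_left _ _⟩
    rw [hf] at h1 h3
    have hl : 0 < f (0, 1) := by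
      by_contra hl
      push Not at hl
      have := mul_le_mul_of_nonpos_right (le_max_right (vnEntropy (Ψ ω0)) s0) hl
      linarith
    let Λ : Matrix d d ℂ →ₗ[ℝ] ℝ :=
      { toFun := fun ω => (u * ω.trace.re - f (ω, 0)) / f (0, 1)
        map_add' := fun A B => by
          have : f (A + B, 0) = f (A, 0) + f (B, 0) := by rw [← map_add]; simp
          rw [this, trace_add, Complex.add_re]; ring
        map_smul' := fun c A => by
          have : f (c • A, 0) = c * f (A, 0) := by rw [← smul_eq_mul, ← map_smul]; simp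
          rw [this, trace_smul]; simp; ring }
    have h4 := hs Λ fun ω hω => by
      have := hT (ω, vnEntropy (Ψ ω)) ⟨hω, le_rfl⟩
      rw [hf] at this
      change (u * ω.trace.re - f (ω, 0)) / f (0, 1) ≤ _
      rw [div_le_iff₀ hl, hω.2]; simp; linarith
    change (u * ω0.trace.re - f (ω0, 0)) / f (0, 1) ≤ _ at h4
    rw [div_le_iff₀ hl, hω.2] at h4
    simp at h4; linarith
  have hsub : convexHull ℝ T ⊆ Prod.fst ⁻¹' {ω | IsDensity ω} :=
    convexHull_min (fun y hy => hy.1) (convex_density.linear_preimage (LinearMap.fst ℝ _ _))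
  have hc : ContinuousWithinAt (fun y : Matrix d d ℂ × ℝ => vnEntropy (Ψ y.1) - y.2)
      (convexHull ℝ T) (ω0, s0) := by
    have c1 : ContinuousOn (fun y : Matrix d d ℂ × ℝ => vnEntropy (Ψ y.1))
        (Prod.fst ⁻¹' {ω | IsDensity ω}) :=
      continuousOn_vn.comp (h.continuous.comp continuous_fst).continuousOn fun y hy => h.density hy
    exact ((c1 _ hω).mono hsub).sub continuous_snd.continuousWithinAt
  haveI := mem_closure_iff_nhdsWithin_neBot.mp hmem
  obtain ⟨⟨ω, s⟩, h1, h2⟩ := ((hc.eventually_const_lt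
    (show vnEntropy (Ψ ω0) - s0 - ε < _ by simp only; linarith)).and self_mem_nhdsWithin).exists
  obtain ⟨ι, _, w, z, w0, w1, hz, hsum⟩ := mem_convexHull_iff_exists_fintype.mp h2
  obtain ⟨m, q, ρ, he, hq⟩ := exists_ensemble Ψ w (fun i => (z i).1) w0 w1 fun i => (hz i).1
  refine ⟨m, q, ρ, he, ?_⟩
  rw [hq, ← h.map_sum]
  have e1 : ∑ a, (w a : ℂ) • (z a).1 = ω := by
    have := congrArg Prod.fst hsum
    simpa [Prod.fst_sum] using this
  have e2 : ∑ a, w a * (z a).2 = s := by
    have := congrArg Prod.snd hsum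
    simpa [Prod.snd_sum] using this
  have e3 : ∑ a, w a * vnEntropy (Ψ (z a).1) ≤ s := by
    rw [← e2]
    exact Finset.sum_le_sum fun a _ => mul_le_mul_of_nonneg_left (hz a).2 (w0 a)
  rw [e1]
  simp only at h1
  linarith

lemma negMulLog_le {x a k : ℝ} (hx : 0 ≤ x) (ha : x ≤ a) (hk : x ≤ k) :
    Real.negMulLog x ≤ -(x * Real.log a) - x * Real.log k + a * k - x := by
  rcases hx.eq_or_lt with rfl | hx
  · simp; positivity
  · have h1 : 0 < a := by linarith
    have h2 : 0 < k := by linarith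
    have := Real.log_le_sub_one_of_pos (show 0 < a * k / x by positivity)
    rw [Real.log_div (by positivity) hx.ne', Real.log_mul h1.ne' h2.ne'] at this
    have := mul_le_mul_of_nonneg_left this hx.le
    rw [mul_sub x (a * k / x), mul_div_cancel₀ _ hx.ne'] at this
    rw [Real.negMulLog]; linarith

lemma subadd {X : Matrix (Bool × e) (Bool × e) ℂ} (hX : IsDensity X) :
    vnEntropy X ≤ Real.binEntropy (block X true true).trace.re +
      vnEntropy (block X false false + block X true true) := by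
  have hω : IsDensity (block X false false + block X true true) :=
    ⟨(psd_block hX.1 false).add (psd_block hX.1 true), by rw [trace_add, ← trace_blocks, hX.2]⟩
  obtain ⟨V, k, hd⟩ := exists_diag hω.1.1
  have hW : ((1 : Matrix Bool Bool ℂ) ⊗ₖ V)ᴴ * ((1 : Matrix Bool Bool ℂ) ⊗ₖ V) = 1 := by
    rw [conjTranspose_kronecker, ← mul_kronecker_mul, hd.uu]; simp
  refine (peierls hX.1 hW).trans ?_
  set x : Bool → e → ℝ := fun s j => ((Vᴴ * block X s s * V) j j).re with hx
  have e1 : ∀ s j, ((((1 : Matrix Bool Bool ℂ) ⊗ₖ V)ᴴ * X * ((1 : Matrix Bool Bool ℂ) ⊗ₖ V))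
      (s, j) (s, j)).re = x s j := by
    intro s j
    simp only [hx]
    congr 1
    cases s <;> simp [mul_apply, Fintype.sum_prod_type, block, one_apply]
  have x0 : ∀ s j, 0 ≤ x s j := fun s j =>
    diag_re_nonneg ((psd_block hX.1 s).conjTranspose_mul_mul_same V) j
  have e2 : ∀ j, x true j + x false j = k j := fun j => by
    have := congrArg Complex.re (congrFun (congrFun hd.conj j) j)
    rw [Matrix.mul_add, Matrix.add_mul, Matrix.add_apply, Complex.add_re, dg_apply, if_pos rfl,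
      Complex.ofReal_re] at this
    simp only [hx]; linarith
  have e3 : ∀ s, ∑ j, x s j = (block X s s).trace.re := fun s => by
    rw [← trace_uconj hd.uu, Matrix.trace, Complex.re_sum]; rfl
  set q := (block X true true).trace.re with hq
  have e4 : (block X false false).trace.re = 1 - q := by
    have := congrArg Complex.re (trace_blocks X)
    rw [hX.2, Complex.add_re, Complex.one_re] at this
    linarith
  have e5 : ∀ s j, x s j ≤ (block X s s).trace.re := fun s j => by
    rw [← e3]; exact Finset.single_le_sum (f := x s) (fun j _ => x0 s j) (Finset.mem_univ j)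
  rw [Fintype.sum_prod_type, Fintype.sum_bool]
  simp only [e1]
  have f1 := Finset.sum_le_sum fun j (_ : j ∈ Finset.univ) =>
    negMulLog_le (x0 true j) (e5 true j) (show x true j ≤ k j by linarith [e2 j, x0 false j])
  have f2 := Finset.sum_le_sum fun j (_ : j ∈ Finset.univ) =>
    negMulLog_le (x0 false j) (e5 false j) (show x false j ≤ k j by linarith [e2 j, x0 true j])
  simp only [Finset.sum_add_distrib, Finset.sum_sub_distrib, Finset.sum_neg_distrib,
    ← Finset.sum_mul, ← Finset.mul_sum, e3, e4, hd.sum_one hω, ← hq] at f1 f2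
  have f3 : ∑ j, x true j * Real.log (k j) + ∑ j, x false j * Real.log (k j) =
      -∑ j, Real.negMulLog (k j) := by
    rw [← Finset.sum_add_distrib, ← Finset.sum_neg_distrib]
    exact Finset.sum_congr rfl fun j _ => by rw [← add_mul, e2, Real.negMulLog]; ring
  rw [hd.vn, Real.binEntropy_eq_negMulLog_add_negMulLog_one_sub]
  simp only [Real.negMulLog] at f1 f2 f3 ⊢
  linarith

lemma vn_qubit {X : Matrix Bool Bool ℂ} (hX : IsDensity X) {v : ℝ} (hv : X.det = v) :
    vnEntropy X = F v := by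
  obtain ⟨U, l, hd⟩ := exists_diag hX.1.1
  have h1 := hd.sum_one hX
  have h2 : l true * l false = v := by
    have : X.det = ((l true * l false : ℝ) : ℂ) := by
      rw [hd.eq, det_mul_comm, ← Matrix.mul_assoc, hd.uu, Matrix.one_mul]
      simp [dg]
    rw [hv] at this
    exact_mod_cast this.symm
  rw [Fintype.sum_bool] at h1
  have h3 : l false = 1 - l true := by linarith
  rw [hd.vn, Fintype.sum_bool, h3, ← Real.binEntropy_eq_negMulLog_add_negMulLog_one_sub, F,
    show 1 - 4 * v = (2 * l true - 1) ^ 2 by rw [← h2, h3]; ring, Real.sqrt_sq_eq_abs]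
  rcases abs_cases (2 * l true - 1) with ⟨h, -⟩ | ⟨h, -⟩
  · rw [h]; congr 1; ring
  · rw [h, ← Real.binEntropy_one_sub]; congr 1; ring

lemma block_sum {ι : Type*} [Fintype ι] (q : ι → ℝ) (ρ : ι → Matrix (Bool × d) (Bool × d) ℂ)
    (s t : Bool) : block (∑ a, (q a : ℂ) • ρ a) s t = ∑ a, (q a : ℂ) • block (ρ a) s t := by
  ext i j; simp [block, Matrix.sum_apply]

lemma qt_block_tt (γ ν : ℝ) (Ψ : Matrix d d ℂ → Matrix e e ℂ)
    (M : Matrix (Bool × d) (Bool × d) ℂ) :
    block (qubitTensor (gadMap γ ν) Ψ M) true true =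
      ((γ * ν : ℝ) : ℂ) • Ψ (block M false false) +
        ((1 - γ + γ * ν : ℝ) : ℂ) • Ψ (block M true true) := by
  rw [qt_eq]; rfl

lemma qt_block_ff (γ ν : ℝ) (Ψ : Matrix d d ℂ → Matrix e e ℂ)
    (M : Matrix (Bool × d) (Bool × d) ℂ) :
    block (qubitTensor (gadMap γ ν) Ψ M) false false =
      ((1 - γ * ν : ℝ) : ℂ) • Ψ (block M false false) +
        ((γ * (1 - ν) : ℝ) : ℂ) • Ψ (block M true true) := by
  rw [qt_eq]; rfl

theorem upper [Nonempty d] [Nonempty e] {γ ν : ℝ} (hγ : γ ∈ Set.Icc (0 : ℝ) 1)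
    (hν : ν ∈ Set.Icc (0 : ℝ) 1) {Ψ : Matrix d d ℂ → Matrix e e ℂ} (h : Good Ψ)
    {m : ℕ} {q : Fin m → ℝ} {ρ : Fin m → Matrix (Bool × d) (Bool × d) ℂ} (he : IsEnsemble q ρ)
    {ε : ℝ} (hε : 0 < ε) :
    ∃ (m₂ : ℕ) (q₂ : Fin m₂ → ℝ) (ρ₂ : Fin m₂ → Matrix d d ℂ), IsEnsemble q₂ ρ₂ ∧
      holevoInfo (qubitTensor (gadMap γ ν) Ψ) q ρ ≤
        Real.binEntropy ((1 - γ) * (∑ a, q a * (block (ρ a) true true).trace.re) + γ * ν) -
          ∑ a, q a * F (vv γ ν (block (ρ a) true true).trace.re) + holevoInfo Ψ q₂ ρ₂ + ε := by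
  obtain ⟨q0, q1, hρ⟩ := he
  have hω : ∀ a, IsDensity (block (ρ a) false false + block (ρ a) true true) := fun a =>
    ⟨(psd_block (hρ a).1 false).add (psd_block (hρ a).1 true), by
      rw [trace_add, ← trace_blocks, (hρ a).2]⟩
  obtain ⟨m₂, q₂, ρ₂, he₂, hle⟩ := roof h (density_sum q _ q0 q1 hω)
    (∑ a, q a * vnEntropy (qubitTensor (gadMap γ ν) Ψ (ρ a)) -
      ∑ a, q a * F (vv γ ν (block (ρ a) true true).trace.re)) (fun Λ hΛ => by
      rw [_root_.map_sum, ← Finset.sum_sub_distrib]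
      refine Finset.sum_le_sum fun a _ => ?_
      rw [Complex.coe_smul, map_smul, smul_eq_mul, ← mul_sub]
      refine mul_le_mul_of_nonneg_left ?_ (q0 a)
      linarith [main hγ hν h Λ hΛ (hρ a)]) hε
  refine ⟨m₂, q₂, ρ₂, he₂, ?_⟩
  have hs := subadd (density_sum q _ q0 q1 fun a => qt_density hγ hν h (hρ a))
  have e1 : (block (∑ a, (q a : ℂ) • qubitTensor (gadMap γ ν) Ψ (ρ a)) true true).trace.re =
      (1 - γ) * (∑ a, q a * (block (ρ a) true true).trace.re) + γ * ν := by
    rw [block_sum, trace_sum, Complex.re_sum]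
    have e0 : γ * ν = ∑ a, γ * ν * q a := by rw [← Finset.mul_sum, q1, mul_one]
    conv_rhs => rw [e0, Finset.mul_sum, ← Finset.sum_add_distrib]
    refine Finset.sum_congr rfl fun a _ => ?_
    have := congrArg Complex.re (trace_blocks (ρ a))
    rw [(hρ a).2, Complex.add_re, Complex.one_re] at this
    simp only [qt_block_tt, trace_smul, trace_add, smul_eq_mul, h.tp, Complex.re_ofReal_mul,
      Complex.add_re]
    linear_combination (-(q a * (γ * ν))) * this
  have e2 : block (∑ a, (q a : ℂ) • qubitTensor (gadMap γ ν) Ψ (ρ a)) false false +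
      block (∑ a, (q a : ℂ) • qubitTensor (gadMap γ ν) Ψ (ρ a)) true true =
      Ψ (∑ a, (q a : ℂ) • (block (ρ a) false false + block (ρ a) true true)) := by
    rw [block_sum, block_sum, h.map_sum, ← Finset.sum_add_distrib]
    refine Finset.sum_congr rfl fun a _ => ?_
    rw [qt_block_ff, qt_block_tt, h.lin.map_add]
    push_cast
    module
  rw [e1, e2] at hs
  rw [holevoInfo]
  linarith

end Crest.Agent.R341
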