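import Crest.Agent.R341.Gad
import Crest.Prelude.Def_AmpDamp

/-! The main entropy inequality for `gadMap γ ν ⊗ Ψ`. -/

set_option autoImplicit false
set_option linter.unusedSectionVars false

open Matrix Crest.Quantum Filter Topology Crest.MathPhysics.AmpDamp
open scoped ComplexOrder ComplexConjugate Kronecker
open Crest.Agent.VN

namespace Crest.Agent.R341

variable {d e : Type*} [Fintype d] [DecidableEq d] [Fintype e] [DecidableEq e]

/-- the properties of a channel that are used -/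
structure Good (Ψ : Matrix d d ℂ → Matrix e e ℂ) : Prop where
  lin : IsLinearMap ℂ Ψ
  tp : ∀ M, (Ψ M).trace = M.trace
  pos : ∀ M, M.PosSemidef → (Ψ M).PosSemidef
  pos2 : ∀ M : Matrix (Bool × d) (Bool × d) ℂ, M.PosSemidef → (blockwise Ψ M).PosSemidef

lemma good_of_channel {Ψ : Matrix d d ℂ → Matrix e e ℂ} (h : IsChannel Ψ) : Good Ψ := by
  refine ⟨h.1, h.2.2, fun M hM => ?_, fun M hM => ?_⟩
  · exact (h.2.1 1 (M.submatrix Prod.snd Prod.snd) (hM.submatrix _)).submatrix fun i => (0, i)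
  · have := (h.2.1 2 (M.submatrix (Prod.map finTwoEquiv id) (Prod.map finTwoEquiv id))
      (hM.submatrix _)).submatrix (Prod.map finTwoEquiv.symm id)
    convert this using 1
    ext ⟨s, i⟩ ⟨t, j⟩
    simp [blockwise, block]

lemma Good.density {Ψ : Matrix d d ℂ → Matrix e e ℂ} (h : Good Ψ) {M : Matrix d d ℂ}
    (hM : IsDensity M) : IsDensity (Ψ M) := ⟨h.pos M hM.1, by rw [h.tp, hM.2]⟩

lemma Good.continuous {Ψ : Matrix d d ℂ → Matrix e e ℂ} (h : Good Ψ) : Continuous Ψ :=
  (IsLinearMap.mk' Ψ h.lin).continuous_of_finiteDimensional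

/-- a matrix on `Bool × d` as a block matrix -/
lemma submatrix_symm_eq (M : Matrix (Bool × d) (Bool × d) ℂ) :
    M.submatrix (Equiv.boolProdEquivSum d).symm (Equiv.boolProdEquivSum d).symm =
      fromBlocks (block M false false) (block M false true) (block M true false)
        (block M true true) := by
  ext (i | i) (j | j) <;> rfl

lemma block_conjT {M : Matrix (Bool × d) (Bool × d) ℂ} (hM : M.IsHermitian) :
    block M true false = (block M false true)ᴴ := by
  ext i j
  simp only [block, of_apply, conjTranspose_apply]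
  exact (hM.apply _ _).symm

lemma psd_blocks {M : Matrix (Bool × d) (Bool × d) ℂ} (hM : M.PosSemidef) :
    (fromBlocks (block M false false) (block M false true) (block M false true)ᴴ
      (block M true true)).PosSemidef := by
  rw [← block_conjT hM.1, ← submatrix_symm_eq]
  exact hM.submatrix _

lemma block_blockwise (Ψ : Matrix d d ℂ → Matrix e e ℂ) (M : Matrix (Bool × d) (Bool × d) ℂ)
    (s t : Bool) : block (blockwise Ψ M) s t = Ψ (block M s t) := rfl

lemma trace_blocks (M : Matrix (Bool × d) (Bool × d) ℂ) :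
    M.trace = (block M false false).trace + (block M true true).trace := by
  simp [Matrix.trace, Fintype.sum_prod_type, block, add_comm]

lemma psd_block {M : Matrix (Bool × d) (Bool × d) ℂ} (hM : M.PosSemidef) (s : Bool) :
    (block M s s).PosSemidef := hM.submatrix fun i => (s, i)

lemma qt_eq (γ ν : ℝ) (Ψ : Matrix d d ℂ → Matrix e e ℂ) (M : Matrix (Bool × d) (Bool × d) ℂ) :
    qubitTensor (gadMap γ ν) Ψ M =
      (gadOut γ ν (Ψ (block M false false)) (Ψ (block M false true)) (Ψ (block M true false))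
        (Ψ (block M true true))).submatrix (Equiv.boolProdEquivSum e) (Equiv.boolProdEquivSum e) := by
  ext ⟨s, i⟩ ⟨t, j⟩
  cases s <;> cases t <;>
    simp [qubitTensor, qubitCoeff, gadMap, gadOut, Equiv.boolProdEquivSum, add_comm]

lemma Good.block_conjT {Ψ : Matrix d d ℂ → Matrix e e ℂ} (h : Good Ψ)
    {M : Matrix (Bool × d) (Bool × d) ℂ} (hM : M.PosSemidef) :
    Ψ (block M true false) = (Ψ (block M false true))ᴴ :=
  R341.block_conjT (h.pos2 M hM).1

lemma Good.psd_blocks {Ψ : Matrix d d ℂ → Matrix e e ℂ} (h : Good Ψ)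
    {M : Matrix (Bool × d) (Bool × d) ℂ} (hM : M.PosSemidef) :
    (fromBlocks (Ψ (block M false false)) (Ψ (block M false true)) (Ψ (block M false true))ᴴ
      (Ψ (block M true true))).PosSemidef := R341.psd_blocks (h.pos2 M hM)

lemma trace_submatrix_equiv {n m : Type*} [Fintype n] [Fintype m] (A : Matrix n n ℂ) (σ : m ≃ n) :
    (A.submatrix σ σ).trace = A.trace := Equiv.sum_comp σ fun i => A i i

lemma qt_density {γ ν : ℝ} (hγ : γ ∈ Set.Icc (0 : ℝ) 1) (hν : ν ∈ Set.Icc (0 : ℝ) 1)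
    {Ψ : Matrix d d ℂ → Matrix e e ℂ} (h : Good Ψ) {M : Matrix (Bool × d) (Bool × d) ℂ}
    (hM : IsDensity M) : IsDensity (qubitTensor (gadMap γ ν) Ψ M) := by
  rw [qt_eq, h.block_conjT hM.1]
  refine ⟨(gadOut_psd hγ hν (h.psd_blocks hM.1)).submatrix _, ?_⟩
  rw [trace_submatrix_equiv, gadOut_trace, h.tp, h.tp, ← trace_blocks, hM.2]

lemma om2_psd {A B C : Matrix e e ℂ} (hM : (fromBlocks A B Bᴴ C).PosSemidef) (y x : ℂ) :
    (om2 A B C y x).PosSemidef := by
  have := hM.mul_mul_conjTranspose_same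
    (fromBlocks (y • (1 : Matrix e e ℂ)) (x • (1 : Matrix e e ℂ)) (0 : Matrix e e ℂ) 0)
  simp only [fromBlocks_conjTranspose, fromBlocks_multiply, conjTranspose_smul, conjTranspose_one,
    conjTranspose_zero, Matrix.mul_smul, Matrix.smul_mul, Matrix.one_mul, Matrix.mul_one,
    Matrix.mul_zero, Matrix.zero_mul, add_zero, RCLike.star_def] at this
  convert psd_block11 this using 1
  simp only [om2, Complex.normSq_eq_conj_mul_self]
  module

theorem main_interior {γ ν : ℝ} (hγ : γ ∈ Set.Ioo (0 : ℝ) 1) (hν : ν ∈ Set.Ioo (0 : ℝ) 1)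
    {Ψ : Matrix d d ℂ → Matrix e e ℂ} (h : Good Ψ)
    (hpd : ∀ X : Matrix d d ℂ, X.PosSemidef → 0 < X.trace.re → (Ψ X).PosDef)
    (Λ : Matrix d d ℂ →ₗ[ℝ] ℝ) (hΛ : ∀ ω, IsDensity ω → Λ ω ≤ vnEntropy (Ψ ω))
    {M : Matrix (Bool × d) (Bool × d) ℂ} (hM : IsDensity M)
    (hp : (block M true true).trace.re ∈ Set.Ioo (0 : ℝ) 1) :
    F (vv γ ν (block M true true).trace.re) + Λ (block M false false + block M true true) ≤
      vnEntropy (qubitTensor (gadMap γ ν) Ψ M) := by
  set A := block M false false with hAd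
  set B := block M false true with hBd
  set C := block M true true with hCd
  have hB' : block M true false = Bᴴ := block_conjT hM.1.1
  have hA : A.trace.re = 1 - C.trace.re := by
    have := congrArg Complex.re (trace_blocks M)
    rw [hM.2, Complex.add_re, Complex.one_re] at this
    linarith
  have hΨB : Ψ Bᴴ = (Ψ B)ᴴ := by rw [← hB']; exact h.block_conjT hM.1
  have hg := gadOut_psd (Set.Ioo_subset_Icc_self hγ) (Set.Ioo_subset_Icc_self hν)
    (h.psd_blocks hM.1)
  rw [qt_eq, h.block_conjT hM.1, vn_submatrix hg.1, map_add, ← add_assoc]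
  refine gad_interior hγ hν hp (h.psd_blocks hM.1)
    (hpd _ (psd_block hM.1 false) (by rw [← hAd, hA]; linarith [hp.2]))
    (hpd _ (psd_block hM.1 true) hp.1) (by rw [h.tp, hA]) (by rw [h.tp]) _ _
    ((Λ (Bᴴ + B) : ℂ) - Complex.I * (Λ (Complex.I • Bᴴ - Complex.I • B) : ℝ)) fun y x hx => ?_
  have e1 : om2 (Ψ A) (Ψ B) (Ψ C) y x = Ψ (om2 A B C y x) := by
    simp only [om2, h.lin.map_add, h.lin.map_smul, hΨB]
  rw [e1] at hx ⊢
  rw [h.tp] at hx
  refine le_trans (le_of_eq ?_) (hΛ _ (density_of_re (om2_psd (psd_blocks hM.1) y x) hx))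
  have e2 : om2 A B C y x = Complex.normSq y • A + (x * conj y).re • (Bᴴ + B) +
      (x * conj y).im • (Complex.I • Bᴴ - Complex.I • B) + Complex.normSq x • C := by
    have : conj x * y = conj (x * conj y) := by simp
    rw [om2, this]
    generalize x * conj y = w
    simp only [← Complex.coe_smul]
    conv_lhs => rw [← Complex.re_add_im w]
    simp only [map_add, map_mul, Complex.conj_ofReal, Complex.conj_I]
    module
  rw [e2]
  generalize x * conj y = w
  simp only [map_add Λ, map_smul Λ, smul_eq_mul, Complex.mul_re, Complex.sub_re, Complex.sub_im,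
    Complex.ofReal_re, Complex.ofReal_im, Complex.mul_im, Complex.I_re, Complex.I_im]
  ring

/-- depolarised channel -/
noncomputable def dep (κ : ℝ) (Ψ : Matrix d d ℂ → Matrix e e ℂ) (X : Matrix d d ℂ) :
    Matrix e e ℂ :=
  ((1 - κ : ℝ) : ℂ) • Ψ X + (κ : ℂ) • X.trace • (((Fintype.card e : ℝ)⁻¹ : ℝ) : ℂ) • (1 : Matrix e e ℂ)

lemma density_flat [Nonempty e] :
    IsDensity ((((Fintype.card e : ℝ)⁻¹ : ℝ) : ℂ) • (1 : Matrix e e ℂ)) := by
  refine ⟨psd_rsmul PosSemidef.one (by positivity), ?_⟩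
  have : (Fintype.card e : ℂ) ≠ 0 := by exact_mod_cast Fintype.card_ne_zero
  simp [this]

lemma Good.dep [Nonempty e] {Ψ : Matrix d d ℂ → Matrix e e ℂ} (h : Good Ψ) {κ : ℝ}
    (hκ : κ ∈ Set.Icc (0 : ℝ) 1) : Good (dep κ Ψ) := by
  have hκ' : 0 ≤ 1 - κ := by linarith [hκ.2]
  refine ⟨⟨fun X Y => ?_, fun c X => ?_⟩, fun X => ?_, fun X hX => ?_, fun M hM => ?_⟩
  · simp only [R341.dep, h.lin.map_add, trace_add]; module
  · simp only [R341.dep, h.lin.map_smul, trace_smul, smul_eq_mul]; module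
  · rw [R341.dep, trace_add, trace_smul, trace_smul, trace_smul, density_flat.2, h.tp]
    simp only [smul_eq_mul]; push_cast; ring
  · exact (psd_rsmul (h.pos X hX) hκ').add (psd_rsmul (density_flat.1.smul hX.trace_nonneg) hκ.1)
  · have hT : (∑ i : d, M.submatrix (fun s : Bool => (s, i)) (fun s => (s, i))).PosSemidef :=
      posSemidef_sum _ fun i _ => hM.submatrix _
    convert (psd_rsmul (h.pos2 M hM) hκ').add
      (psd_rsmul (hT.kronecker (density_flat (e := e)).1) hκ.1) using 1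
    ext ⟨s, i⟩ ⟨t, j⟩
    simp [blockwise, R341.dep, block, Matrix.trace, Matrix.sum_apply]

lemma dep_posDef [Nonempty e] {Ψ : Matrix d d ℂ → Matrix e e ℂ} (h : Good Ψ) {κ : ℝ}
    (hκ : κ ∈ Set.Ioc (0 : ℝ) 1) (X : Matrix d d ℂ) (hX : X.PosSemidef) (ht : 0 < X.trace.re) :
    (dep κ Ψ X).PosDef := by
  have hκ' : 0 ≤ 1 - κ := by linarith [hκ.2]
  refine PosDef.posSemidef_add (psd_rsmul (h.pos X hX) hκ') ?_
  have h1 : (0 : ℂ) < X.trace :=
    Complex.pos_iff.mpr ⟨ht, (Complex.nonneg_iff.mp hX.trace_nonneg).2⟩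
  have h2 : (0 : ℝ) < (Fintype.card e : ℝ)⁻¹ := by
    have := Fintype.card_pos (α := e); positivity
  exact ((PosDef.one.smul (by exact_mod_cast h2)).smul h1).smul (by exact_mod_cast hκ.1)

lemma vn_dep [Nonempty e] {Ψ : Matrix d d ℂ → Matrix e e ℂ} (h : Good Ψ) {κ : ℝ}
    (hκ : κ ∈ Set.Icc (0 : ℝ) 1) {ω : Matrix d d ℂ} (hω : IsDensity ω) :
    (1 - κ) * vnEntropy (Ψ ω) ≤ vnEntropy (dep κ Ψ ω) := by
  have := vn_concave2 (h.pos ω hω.1) (density_flat (e := e)).1 (a := 1 - κ) (b := κ)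
    (by linarith [hκ.2]) hκ.1 (by ring)
  rw [dep, hω.2, one_smul]
  have h2 := mul_nonneg hκ.1 (vn_nonneg (density_flat (e := e)))
  linarith

lemma density_mix {n : Type*} [Fintype n] {A B : Matrix n n ℂ} (hA : IsDensity A)
    (hB : IsDensity B) {κ : ℝ} (hκ : κ ∈ Set.Icc (0 : ℝ) 1) :
    IsDensity (((1 - κ : ℝ) : ℂ) • A + (κ : ℂ) • B) := by
  refine ⟨(psd_rsmul hA.1 (by linarith [hκ.2])).add (psd_rsmul hB.1 hκ.1), ?_⟩
  rw [trace_add, trace_smul, trace_smul, hA.2, hB.2]; simp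

lemma pop_mem {M : Matrix (Bool × d) (Bool × d) ℂ} (hM : IsDensity M) :
    (block M true true).trace.re ∈ Set.Icc (0 : ℝ) 1 := by
  have := congrArg Complex.re (trace_blocks M)
  rw [hM.2, Complex.add_re, Complex.one_re] at this
  have h1 := trace_re_nonneg (psd_block hM.1 false)
  exact ⟨trace_re_nonneg (psd_block hM.1 true), by linarith⟩

theorem main [Nonempty d] [Nonempty e] {γ ν : ℝ} (hγ : γ ∈ Set.Icc (0 : ℝ) 1)
    (hν : ν ∈ Set.Icc (0 : ℝ) 1) {Ψ : Matrix d d ℂ → Matrix e e ℂ} (h : Good Ψ)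
    (Λ : Matrix d d ℂ →ₗ[ℝ] ℝ) (hΛ : ∀ ω, IsDensity ω → Λ ω ≤ vnEntropy (Ψ ω))
    {M : Matrix (Bool × d) (Bool × d) ℂ} (hM : IsDensity M) :
    F (vv γ ν (block M true true).trace.re) + Λ (block M false false + block M true true) ≤
      vnEntropy (qubitTensor (gadMap γ ν) Ψ M) := by
  let mix : ℝ → ℝ → ℝ := fun a κ => (1 - κ) * a + κ / 2
  have hmix : ∀ a ∈ Set.Icc (0 : ℝ) 1, ∀ κ ∈ Set.Ioc (0 : ℝ) 1, mix a κ ∈ Set.Ioo (0 : ℝ) 1 := by
    intro a ha κ hκ
    simp only [mix]
    constructor <;> nlinarith [ha.1, ha.2, hκ.1, hκ.2]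
  have hmix' : ∀ a ∈ Set.Icc (0 : ℝ) 1, ∀ κ ∈ Set.Icc (0 : ℝ) 1, mix a κ ∈ Set.Icc (0 : ℝ) 1 := by
    intro a ha κ hκ
    simp only [mix]
    constructor <;> nlinarith [ha.1, ha.2, hκ.1, hκ.2]
  let Mκ : ℝ → Matrix (Bool × d) (Bool × d) ℂ := fun κ =>
    ((1 - κ : ℝ) : ℂ) • M + (κ : ℂ) • ((((Fintype.card (Bool × d) : ℝ)⁻¹ : ℝ) : ℂ) • 1)
  have hMκ : ∀ κ ∈ Set.Icc (0 : ℝ) 1, IsDensity (Mκ κ) := fun κ hκ => density_mix hM density_flat hκ
  have cM : Continuous Mκ := by fun_prop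
  have cb : ∀ s t, Continuous fun κ => block (Mκ κ) s t := fun s t =>
    cM.matrix_submatrix (fun i => (s, i)) (fun i => (t, i))
  have hpop : ∀ κ, (block (Mκ κ) true true).trace.re = mix (block M true true).trace.re κ := by
    intro κ
    have : block (Mκ κ) true true = ((1 - κ : ℝ) : ℂ) • block M true true +
        (κ : ℂ) • ((((Fintype.card (Bool × d) : ℝ)⁻¹ : ℝ) : ℂ) • 1) := by
      ext i j; simp [Mκ, block, one_apply]
    have hc : (Fintype.card d : ℝ) ≠ 0 := by exact_mod_cast Fintype.card_ne_zero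
    rw [this, trace_add, trace_smul, trace_smul, trace_smul, trace_one]
    simp only [smul_eq_mul, Complex.add_re, Complex.re_ofReal_mul, Complex.natCast_re, mix,
      Fintype.card_prod, Fintype.card_bool]
    push_cast; field_simp
  let f : ℝ → ℝ := fun κ => F (vv (mix γ κ) (mix ν κ) (mix (block M true true).trace.re κ)) +
    (1 - κ) * Λ (block (Mκ κ) false false + block (Mκ κ) true true)
  let g : ℝ → ℝ := fun κ => vnEntropy (qubitTensor (gadMap (mix γ κ) (mix ν κ)) (dep κ Ψ) (Mκ κ))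
  have cf : Continuous f := by
    refine (continuous_F.comp ?_).add (Continuous.mul (by fun_prop) ?_)
    · unfold vv; fun_prop
    · exact Λ.continuous_of_finiteDimensional.comp ((cb _ _).add (cb _ _))
  have cg : ContinuousOn g (Set.Icc 0 1) := by
    refine continuousOn_vn.comp (Continuous.continuousOn ?_) fun κ hκ =>
      qt_density (hmix' γ hγ κ hκ) (hmix' ν hν κ hκ) (h.dep hκ) (hMκ κ hκ)
    simp only [qt_eq]
    refine Continuous.matrix_submatrix ?_ _ _
    have cd : ∀ s t, Continuous fun κ => dep κ Ψ (block (Mκ κ) s t) := fun s t => by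
      have c1 : Continuous fun κ => Ψ (block (Mκ κ) s t) := h.continuous.comp (cb s t)
      have c2 : Continuous fun κ => (block (Mκ κ) s t).trace := (cb s t).matrix_trace
      have c3 : Continuous fun κ : ℝ => ((1 - κ : ℝ) : ℂ) := by fun_prop
      unfold dep
      exact (c3.smul c1).add (Complex.continuous_ofReal.smul (c2.smul continuous_const))
    have c1 := cd false false
    have c2 := cd false true
    have c3 := cd true false
    have c4 := cd true true
    unfold gadOut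
    refine Continuous.matrix_fromBlocks ?_ ?_ ?_ ?_ <;> fun_prop
  have hfg : ∀ κ ∈ Set.Ioc (0 : ℝ) 1, f κ ≤ g κ := by
    intro κ hκ
    have hκ' := Set.Ioc_subset_Icc_self hκ
    have := main_interior (hmix γ hγ κ hκ) (hmix ν hν κ hκ) (h.dep hκ') (dep_posDef h hκ)
      ((1 - κ) • Λ) (fun ω hω => by
        rw [LinearMap.smul_apply, smul_eq_mul]
        exact (mul_le_mul_of_nonneg_left (hΛ ω hω) (by linarith [hκ.2])).trans (vn_dep h hκ' hω))
      (hMκ κ hκ') (by rw [hpop]; exact hmix _ (pop_mem hM) κ hκ)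
    rw [hpop] at this
    exact this
  have h0 : f 0 ≤ g 0 := by
    have hcl : (0 : ℝ) ∈ closure (Set.Ioc (0 : ℝ) 1) := by
      rw [closure_Ioc zero_ne_one]; exact ⟨le_rfl, zero_le_one⟩
    exact ContinuousWithinAt.closure_le hcl cf.continuousWithinAt
      ((cg 0 ⟨le_rfl, zero_le_one⟩).mono Set.Ioc_subset_Icc_self) hfg
  have e1 : dep 0 Ψ = Ψ := by ext X i j; simp [dep]
  simpa [f, g, mix, Mκ, e1] using h0

end Crest.Agent.R341
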