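import Crest.Agent.R341.Scalar

/-! Averaged second-order expansion of the entropy. -/

set_option autoImplicit false
set_option linter.unusedSectionVars false

open Matrix Crest.Quantum Filter Topology
open scoped ComplexOrder
open Crest.Agent.VN

namespace Crest.Agent.R341

variable {n : Type*} [Fintype n] [DecidableEq n]

lemma herm_rsmul {A : Matrix n n ℂ} (hA : A.IsHermitian) (c : ℝ) : ((c : ℂ) • A).IsHermitian := by
  unfold IsHermitian
  rw [conjTranspose_smul, hA.eq]; simp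

lemma psd_of_small (l : n → ℝ) (X : Matrix n n ℂ) (hX : X.IsHermitian) (κ : ℝ)
    (h : ∀ k, ∑ i, ∑ j, ‖X i j‖ ≤ κ * l k) : ((κ : ℂ) • dg l - X).PosSemidef := by
  have hH : ((κ : ℂ) • dg l - X).IsHermitian := (herm_rsmul (dg_conjT l) κ).sub hX
  refine PosSemidef.of_dotProduct_mulVec_nonneg hH fun v => ?_
  rw [Complex.nonneg_iff]
  refine ⟨?_, (hH.im_star_dotProduct_mulVec_self v).symm⟩
  rw [sub_mulVec, dotProduct_sub, Complex.sub_re, sub_nonneg]
  have e1 : (star v ⬝ᵥ ((κ : ℂ) • dg l) *ᵥ v).re = ∑ i, κ * l i * ‖v i‖ ^ 2 := by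
    rw [dotProduct, Complex.re_sum]
    refine Finset.sum_congr rfl fun i _ => ?_
    rw [smul_mulVec, Pi.smul_apply, dg, mulVec_diagonal, Pi.star_apply, smul_eq_mul]
    have : star (v i) * ((κ : ℂ) * ((l i : ℂ) * v i)) = ((κ * l i * ‖v i‖ ^ 2 : ℝ) : ℂ) := by
      rw [Complex.sq_norm, Complex.ofReal_mul, Complex.normSq_eq_conj_mul_self]
      simp only [RCLike.star_def]; push_cast; ring
    rw [this, Complex.ofReal_re]
  rw [e1]
  have hrow : ∀ i, ∑ j, ‖X i j‖ ≤ κ * l i := fun i =>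
    (Finset.single_le_sum (f := fun i => ∑ j, ‖X i j‖)
      (fun i _ => Finset.sum_nonneg fun j _ => norm_nonneg _) (Finset.mem_univ i)).trans (h i)
  have hcol : ∀ j, ∑ i, ‖X i j‖ ≤ κ * l j := fun j => by
    refine le_trans (Finset.sum_le_sum fun i _ => ?_) (h j)
    exact Finset.single_le_sum (f := fun j => ‖X i j‖) (fun j _ => norm_nonneg _) (Finset.mem_univ j)
  calc (star v ⬝ᵥ X *ᵥ v).re ≤ ‖star v ⬝ᵥ X *ᵥ v‖ := Complex.re_le_norm _
    _ ≤ ∑ i, ∑ j, ‖X i j‖ * (‖v i‖ ^ 2 / 2 + ‖v j‖ ^ 2 / 2) := by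
        rw [dotProduct]
        refine (norm_sum_le _ _).trans (Finset.sum_le_sum fun i _ => ?_)
        rw [mulVec, dotProduct, Finset.mul_sum]
        refine (norm_sum_le _ _).trans (Finset.sum_le_sum fun j _ => ?_)
        rw [norm_mul, norm_mul, Pi.star_apply, norm_star]
        have := mul_le_mul_of_nonneg_left (show ‖v i‖ * ‖v j‖ ≤ ‖v i‖ ^ 2 / 2 + ‖v j‖ ^ 2 / 2 by
          nlinarith [sq_nonneg (‖v i‖ - ‖v j‖)]) (norm_nonneg (X i j))
        linarith
    _ = ∑ i, (∑ j, ‖X i j‖) * (‖v i‖ ^ 2 / 2) + ∑ j, (∑ i, ‖X i j‖) * (‖v j‖ ^ 2 / 2) := by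
        simp only [mul_add, Finset.sum_add_distrib, Finset.sum_mul]
        rw [Finset.sum_comm (f := fun i j => ‖X i j‖ * (‖v j‖ ^ 2 / 2))]
    _ ≤ ∑ i, κ * l i * (‖v i‖ ^ 2 / 2) + ∑ j, κ * l j * (‖v j‖ ^ 2 / 2) := by
        gcongr with i _ j _
        · exact hrow i
        · exact hcol j
    _ = _ := by
        rw [← Finset.sum_add_distrib]
        exact Finset.sum_congr rfl fun i _ => by ring

lemma posDef_uconj {A U : Matrix n n ℂ} (hA : A.PosDef) (hU : Uᴴ * U = 1) :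
    (Uᴴ * A * U).PosDef := by
  refine hA.conjTranspose_mul_mul_same fun x y hxy => ?_
  have := congrArg (Uᴴ.mulVec) hxy
  simpa [mulVec_mulVec, hU] using this

/-- the second-order entropy loss -/
noncomputable def loss (l : n → ℝ) (κ : ℝ) (H L : Matrix n n ℂ) : ℝ :=
  ∑ i, (L i i).re * (Real.log (l i) + 1) +
    (1 - κ) / 2 * ∑ i, ∑ j, Complex.normSq (H i j) * ell (l i) (l j)

lemma avg_bound (l : n → ℝ) (hl : ∀ i, 0 < l i) (H L : Matrix n n ℂ) (hH : H.IsHermitian)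
    (hL : L.IsHermitian) (s κ : ℝ) (hκ0 : 0 ≤ κ) (hκ1 : κ ≤ 1)
    (hκ : ∀ k, ∑ i, ∑ j, (|s| * ‖H i j‖ + s ^ 2 * ‖L i j‖) ≤ κ * l k)
    (h1 : (dg l + ((s : ℂ) • H + ((s ^ 2 : ℝ) : ℂ) • L)).PosDef)
    (h2 : (dg l + (((-s : ℝ) : ℂ) • H + ((s ^ 2 : ℝ) : ℂ) • L)).PosDef) :
    vnEntropy (dg l + ((s : ℂ) • H + ((s ^ 2 : ℝ) : ℂ) • L)) / 2 +
      vnEntropy (dg l + (((-s : ℝ) : ℂ) • H + ((s ^ 2 : ℝ) : ℂ) • L)) / 2 ≤
      ∑ i, Real.negMulLog (l i) - s ^ 2 * loss l κ H L := by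
  have hb : ∀ r : ℝ, |r| = |s| → ∀ k,
      ∑ i, ∑ j, ‖((r : ℂ) • H + ((s ^ 2 : ℝ) : ℂ) • L) i j‖ ≤ κ * l k := by
    intro r hr k
    refine le_trans (Finset.sum_le_sum fun i _ => Finset.sum_le_sum fun j _ => ?_) (hκ k)
    rw [Matrix.add_apply, Matrix.smul_apply, Matrix.smul_apply, smul_eq_mul, smul_eq_mul]
    refine (norm_add_le _ _).trans (le_of_eq ?_)
    rw [norm_mul, norm_mul, Complex.norm_real, Complex.norm_real, Real.norm_eq_abs, hr,
      Real.norm_of_nonneg (sq_nonneg s)]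
  have hX : ∀ r : ℝ, ((r : ℂ) • H + ((s ^ 2 : ℝ) : ℂ) • L).IsHermitian := fun r =>
    (herm_rsmul hH r).add (herm_rsmul hL _)
  have a1 := second_order l hl _ (hX s) h1 κ hκ0 (psd_of_small l _ (hX s) κ (hb s rfl))
  have a2 := second_order l hl _ (hX (-s)) h2 κ hκ0 (psd_of_small l _ (hX (-s)) κ (hb (-s) (abs_neg s)))
  have b1 : ∑ i, (((s : ℂ) • H + ((s ^ 2 : ℝ) : ℂ) • L) i i).re * (Real.log (l i) + 1) +
      ∑ i, ((((-s : ℝ) : ℂ) • H + ((s ^ 2 : ℝ) : ℂ) • L) i i).re * (Real.log (l i) + 1) =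
      2 * s ^ 2 * ∑ i, (L i i).re * (Real.log (l i) + 1) := by
    rw [← Finset.sum_add_distrib, Finset.mul_sum]
    refine Finset.sum_congr rfl fun i _ => ?_
    simp only [Matrix.add_apply, Matrix.smul_apply, smul_eq_mul, Complex.add_re,
      Complex.re_ofReal_mul]
    ring
  have b2 : 2 * s ^ 2 * ∑ i, ∑ j, Complex.normSq (H i j) * ell (l i) (l j) ≤
      ∑ i, ∑ j, Complex.normSq (((s : ℂ) • H + ((s ^ 2 : ℝ) : ℂ) • L) i j) * ell (l i) (l j) +
      ∑ i, ∑ j, Complex.normSq ((((-s : ℝ) : ℂ) • H + ((s ^ 2 : ℝ) : ℂ) • L) i j) * ell (l i) (l j) := by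
    rw [← Finset.sum_add_distrib, Finset.mul_sum]
    refine Finset.sum_le_sum fun i _ => ?_
    rw [← Finset.sum_add_distrib, Finset.mul_sum]
    refine Finset.sum_le_sum fun j _ => ?_
    rw [← add_mul, ← mul_assoc]
    refine mul_le_mul_of_nonneg_right ?_ (ell_nonneg (hl i) (hl j))
    simp only [Matrix.add_apply, Matrix.smul_apply, smul_eq_mul, Complex.normSq_apply,
      Complex.add_re, Complex.add_im, Complex.re_ofReal_mul, Complex.im_ofReal_mul]
    nlinarith [sq_nonneg (s ^ 2 * (L i j).re), sq_nonneg (s ^ 2 * (L i j).im)]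
  have b3 := mul_le_mul_of_nonneg_left b2 (show 0 ≤ (1 - κ) / 2 by linarith)
  unfold loss
  nlinarith

lemma avg_expand {ρ U : Matrix n n ℂ} {l : n → ℝ} (hd : Diag ρ U l) (hl : ∀ i, 0 < l i)
    (H L : ℝ → Matrix n n ℂ) (hHc : ContinuousAt H 0) (hLc : ContinuousAt L 0)
    (hH : ∀ s, (H s).IsHermitian) (hL : ∀ s, (L s).IsHermitian)
    (hP : ∀ᶠ s : ℝ in 𝓝[>] 0, (ρ + ((s : ℂ) • H s + ((s ^ 2 : ℝ) : ℂ) • L s)).PosDef ∧
      (ρ + (((-s : ℝ) : ℂ) • H s + ((s ^ 2 : ℝ) : ℂ) • L s)).PosDef) {ε : ℝ} (hε : 0 < ε) :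
    ∀ᶠ s : ℝ in 𝓝[>] 0, vnEntropy (ρ + ((s : ℂ) • H s + ((s ^ 2 : ℝ) : ℂ) • L s)) / 2 +
      vnEntropy (ρ + (((-s : ℝ) : ℂ) • H s + ((s ^ 2 : ℝ) : ℂ) • L s)) / 2 ≤
      vnEntropy ρ - s ^ 2 * (loss l 0 (Uᴴ * H 0 * U) (Uᴴ * L 0 * U) - ε) := by
  set H' : ℝ → Matrix n n ℂ := fun s => Uᴴ * H s * U with hH'
  set L' : ℝ → Matrix n n ℂ := fun s => Uᴴ * L s * U with hL'
  have cH : ContinuousAt H' 0 := (continuousAt_const.mul hHc).mul continuousAt_const
  have cL : ContinuousAt L' 0 := (continuousAt_const.mul hLc).mul continuousAt_const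
  have cH' : ∀ i j, ContinuousAt (fun s => H' s i j) 0 := fun i j =>
    (continuous_id.matrix_elem i j).continuousAt.comp cH
  have cL' : ∀ i j, ContinuousAt (fun s => L' s i j) 0 := fun i j =>
    (continuous_id.matrix_elem i j).continuousAt.comp cL
  let κ : ℝ → ℝ := fun s => (∑ k, 1 / l k) * ∑ i, ∑ j, (|s| * ‖H' s i j‖ + s ^ 2 * ‖L' s i j‖)
  have cκ : ContinuousAt κ 0 := by
    refine continuousAt_const.mul (tendsto_finsetSum _ fun i _ => tendsto_finsetSum _ fun j _ => ?_)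
    exact (continuous_abs.continuousAt.mul (cH' i j).norm).add
      ((continuous_pow 2).continuousAt.mul (cL' i j).norm)
  have κ0 : κ 0 = 0 := by simp [κ]
  have cI : ContinuousAt (fun s => loss l (κ s) (H' s) (L' s)) 0 := by
    unfold loss
    refine ContinuousAt.add (tendsto_finsetSum _ fun i _ => ?_) (ContinuousAt.mul
      ((continuousAt_const.sub cκ).div_const 2)
      (tendsto_finsetSum _ fun i _ => tendsto_finsetSum _ fun j _ => ?_))
    · exact (Complex.continuous_re.continuousAt.comp (cL' i i)).mul continuousAt_const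
    · exact (Complex.continuous_normSq.continuousAt.comp (cH' i j)).mul continuousAt_const
  have e1 : ∀ᶠ s : ℝ in 𝓝 0, κ s < 1 := cκ.eventually_lt_const (by rw [κ0]; exact one_pos)
  have e2 : ∀ᶠ s : ℝ in 𝓝 0, loss l 0 (H' 0) (L' 0) - ε < loss l (κ s) (H' s) (L' s) :=
    cI.eventually_const_lt (by simp only [κ0]; linarith)
  filter_upwards [hP, nhdsWithin_le_nhds e1, nhdsWithin_le_nhds e2] with s hs h1 h2
  have hconj : ∀ r : ℝ, Uᴴ * (ρ + ((r : ℂ) • H s + ((s ^ 2 : ℝ) : ℂ) • L s)) * U =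
      dg l + ((r : ℂ) • H' s + ((s ^ 2 : ℝ) : ℂ) • L' s) := fun r => by
    simp only [Matrix.mul_add, Matrix.add_mul, hd.conj, Matrix.mul_smul, Matrix.smul_mul, hH', hL']
  have hsum : 0 ≤ ∑ i, ∑ j, (|s| * ‖H' s i j‖ + s ^ 2 * ‖L' s i j‖) :=
    Finset.sum_nonneg fun i _ => Finset.sum_nonneg fun j _ => by positivity
  have hinv : ∀ k, 0 ≤ 1 / l k := fun k => by have := hl k; positivity
  have key := avg_bound l hl (H' s) (L' s) (isHermitian_conjTranspose_mul_mul U (hH s))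
    (isHermitian_conjTranspose_mul_mul U (hL s)) s (κ s)
    (mul_nonneg (Finset.sum_nonneg fun k _ => hinv k) hsum) h1.le (fun k => by
      have := Finset.single_le_sum (f := fun k => 1 / l k) (fun k _ => hinv k) (Finset.mem_univ k)
      have h3 : 1 ≤ (∑ k, 1 / l k) * l k := by
        rw [div_le_iff₀ (hl k)] at this; exact this
      simp only [κ]
      nlinarith)
    (by rw [← hconj]; exact posDef_uconj hs.1 hd.uu) (by rw [← hconj]; exact posDef_uconj hs.2 hd.uu)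
  rw [← hconj, ← hconj, vn_uconj hs.1.1 hd.uu, vn_uconj hs.2.1 hd.uu, ← hd.vn] at key
  have := mul_le_mul_of_nonneg_left h2.le (sq_nonneg s)
  linarith

/-- traces in an eigenbasis -/
lemma trace_mul_dg_mul_conjT (N : Matrix n n ℂ) (l : n → ℝ) :
    (N * dg l * Nᴴ).trace.re = ∑ i, ∑ j, Complex.normSq (N i j) * l j := by
  rw [Matrix.trace, Complex.re_sum]
  refine Finset.sum_congr rfl fun i _ => ?_
  rw [diag_apply, mul_apply, Complex.re_sum]
  refine Finset.sum_congr rfl fun j _ => ?_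
  rw [mul_dg_apply, conjTranspose_apply]
  have : N i j * (l j : ℂ) * star (N i j) = ((Complex.normSq (N i j) * l j : ℝ) : ℂ) := by
    rw [Complex.ofReal_mul, Complex.normSq_eq_conj_mul_self]; simp only [RCLike.star_def]; ring
  rw [this, Complex.ofReal_re]

lemma trace_conjT_mul_dg_mul (N : Matrix n n ℂ) (l : n → ℝ) :
    (Nᴴ * dg l * N).trace.re = ∑ i, ∑ j, Complex.normSq (N i j) * l i := by
  have := trace_mul_dg_mul_conjT Nᴴ l
  rw [conjTranspose_conjTranspose] at this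
  rw [this, Finset.sum_comm]
  simp

/-- the loss in terms of the annihilation operator -/
lemma loss_eq (l : n → ℝ) (N : Matrix n n ℂ) {γ η : ℝ} (hη : 0 < η) (hγη : γ + η = 1) :
    η * loss l 0 (((√η)⁻¹ : ℝ) • (N * dg l + dg l * Nᴴ))
      (N * dg l * Nᴴ - ((1 / 2 : ℝ) : ℂ) • (Nᴴ * N * dg l + dg l * (Nᴴ * N))) =
    ∑ i, ∑ j, ell (l i) (l j) * (Complex.normSq (N i j) * l j * (γ * l j + η * l i) +
        l i * l j * (N i j * N j i).re) := by
  set x : n → n → ℝ := fun i j => Complex.normSq (N i j) with hx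
  set y : n → n → ℝ := fun i j => (N i j * N j i).re with hy
  have a0 : ∀ i, (Nᴴ * N) i i = ((∑ j, x j i : ℝ) : ℂ) := fun i => by
    rw [mul_apply]; push_cast
    refine Finset.sum_congr rfl fun j _ => ?_
    simp only [hx]
    rw [conjTranspose_apply, Complex.normSq_eq_conj_mul_self]; rfl
  have a1 : ∀ i, ((N * dg l * Nᴴ - ((1 / 2 : ℝ) : ℂ) • (Nᴴ * N * dg l + dg l * (Nᴴ * N))) i i).re =
      ∑ j, x i j * l j - l i * ∑ j, x j i := by
    intro i
    rw [Matrix.sub_apply, Matrix.smul_apply, Matrix.add_apply, mul_dg_apply, dg_mul_apply, a0,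
      mul_apply, Complex.sub_re, Complex.re_sum]
    congr 1
    · refine Finset.sum_congr rfl fun j _ => ?_
      rw [mul_dg_apply, conjTranspose_apply]
      have : N i j * (l j : ℂ) * star (N i j) = ((Complex.normSq (N i j) * l j : ℝ) : ℂ) := by
        rw [Complex.ofReal_mul, Complex.normSq_eq_conj_mul_self]; simp only [RCLike.star_def]; ring
      rw [this, Complex.ofReal_re]
    · rw [smul_eq_mul, ← Complex.ofReal_mul, ← Complex.ofReal_mul, ← Complex.ofReal_add,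
        ← Complex.ofReal_mul, Complex.ofReal_re]; ring
  have a2 : ∀ i j, η * Complex.normSq ((((√η)⁻¹ : ℝ) • (N * dg l + dg l * Nᴴ)) i j) =
      x i j * l j ^ 2 + x j i * l i ^ 2 + 2 * (l i * l j * y i j) := by
    intro i j
    rw [Matrix.smul_apply, Matrix.add_apply, mul_dg_apply, dg_mul_apply, conjTranspose_apply,
      Complex.real_smul, Complex.normSq_mul, Complex.normSq_ofReal, ← mul_assoc, ← mul_inv,
      Real.mul_self_sqrt hη.le, mul_inv_cancel₀ hη.ne', one_mul]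
    simp only [hx, hy, Complex.normSq_apply, Complex.add_re, Complex.add_im, Complex.mul_re,
      Complex.mul_im, Complex.ofReal_re, Complex.ofReal_im, RCLike.star_def, Complex.conj_re,
      Complex.conj_im]
    ring
  unfold loss
  simp only [a1]
  have b1 : ∑ i, (∑ j, x i j * l j - l i * ∑ j, x j i) * (Real.log (l i) + 1) =
      ∑ i, ∑ j, ell (l i) (l j) * (x i j * l j * (l i - l j)) := by
    simp only [sub_mul, Finset.sum_sub_distrib, Finset.sum_mul, Finset.mul_sum]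
    rw [Finset.sum_comm (f := fun i j => l i * x j i * (Real.log (l i) + 1)),
      ← Finset.sum_sub_distrib]
    refine Finset.sum_congr rfl fun i _ => ?_
    rw [← Finset.sum_sub_distrib]
    refine Finset.sum_congr rfl fun j _ => ?_
    have := ell_mul (l i) (l j)
    linear_combination (-(x i j * l j)) * this
  have b2 : η * ((1 - 0) / 2 * ∑ i, ∑ j,
      Complex.normSq ((((√η)⁻¹ : ℝ) • (N * dg l + dg l * Nᴴ)) i j) * ell (l i) (l j)) =
      ∑ i, ∑ j, ell (l i) (l j) * (x i j * l j ^ 2 + l i * l j * y i j) := by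
    have c1 : η * ∑ i, ∑ j,
        Complex.normSq ((((√η)⁻¹ : ℝ) • (N * dg l + dg l * Nᴴ)) i j) * ell (l i) (l j) =
        ∑ i, ∑ j, ell (l i) (l j) * (x i j * l j ^ 2) + ∑ i, ∑ j, ell (l i) (l j) * (x j i * l i ^ 2)
          + 2 * ∑ i, ∑ j, ell (l i) (l j) * (l i * l j * y i j) := by
      simp only [Finset.mul_sum, ← Finset.sum_add_distrib]
      refine Finset.sum_congr rfl fun i _ => Finset.sum_congr rfl fun j _ => ?_
      rw [← mul_assoc, a2]; ring
    have c2 : ∑ i, ∑ j, ell (l i) (l j) * (x j i * l i ^ 2) =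
        ∑ i, ∑ j, ell (l i) (l j) * (x i j * l j ^ 2) := by
      rw [Finset.sum_comm]
      exact Finset.sum_congr rfl fun i _ => Finset.sum_congr rfl fun j _ => by rw [ell_comm]
    rw [c2] at c1
    simp only [mul_add, Finset.sum_add_distrib]
    linarith
  rw [mul_add, b1, b2, Finset.mul_sum, ← Finset.sum_add_distrib]
  refine Finset.sum_congr rfl fun i _ => ?_
  rw [Finset.mul_sum, ← Finset.sum_add_distrib]
  refine Finset.sum_congr rfl fun j _ => ?_
  have : γ = 1 - η := by linarith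
  rw [this]; ring

end Crest.Agent.R341
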