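import Crest.Agent.Lib.VN.Second

/-! Scalar lemmas for row 341. -/

set_option autoImplicit false
set_option linter.unusedSectionVars false

open Filter Topology Real
open Crest.Agent.VN

namespace Crest.Agent.R341

lemma psi_lemma {h0 : ℝ} (h0p : 0 < h0) : ∃ c1 c2 : ℝ, 0 ≤ c1 ∧ 0 ≤ c2 ∧ c1 - 2 * c2 ≤ 1 ∧
    (∀ h, 0 ≤ h → (c1 - 2 * c2 * cosh h) * sinh h ≤ h) ∧ (c1 - 2 * c2 * cosh h0) * sinh h0 = h0 := by
  have hs : 0 < sinh h0 := sinh_pos_iff.mpr h0p
  have hnum : 0 < h0 * cosh h0 - sinh h0 := by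
    have hm : StrictMonoOn (fun h => h * cosh h - sinh h) (Set.Ici 0) := by
      refine strictMonoOn_of_deriv_pos (convex_Ici 0) (by fun_prop) fun x hx => ?_
      have hd : HasDerivAt (fun h => h * cosh h - sinh h) (1 * cosh x + x * sinh x - cosh x) x :=
        ((hasDerivAt_id' x).fun_mul (hasDerivAt_cosh x)).fun_sub (hasDerivAt_sinh x)
      rw [hd.deriv]
      have hx' : 0 < x := by simpa using hx
      have := mul_pos hx' (sinh_pos_iff.mpr hx')
      linarith
    have := hm Set.self_mem_Ici h0p.le h0p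
    simpa using this
  set c2 := (h0 * cosh h0 - sinh h0) / (2 * sinh h0 ^ 3) with hc2
  have c2p : 0 < c2 := by positivity
  set x0 := cosh h0 with hx0
  set c1 := h0 / sinh h0 + 2 * c2 * x0 with hc1
  have x0p : 0 < x0 := cosh_pos h0
  have c1p : 0 < c1 := by positivity
  set x1 := c1 / (4 * c2) - x0 with hx1
  have hsq : x0 ^ 2 = sinh h0 ^ 2 + 1 := by rw [hx0, cosh_sq]
  have hroot : 4 * c2 * x0 ^ 2 - c1 * x0 + 1 - 2 * c2 = 0 := by
    have : 2 * c2 * sinh h0 ^ 2 = h0 / sinh h0 * x0 - 1 := by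
      rw [hc2]; field_simp
    rw [hc1]; nlinarith
  have hfac : ∀ x, 4 * c2 * x ^ 2 - c1 * x + 1 - 2 * c2 = 4 * c2 * ((x - x0) * (x - x1)) := by
    intro x
    have : 4 * c2 * x1 = c1 - 4 * c2 * x0 := by rw [hx1]; field_simp
    linear_combination hroot + (x - x0) * this
  let ψ : ℝ → ℝ := fun h => h - (c1 - 2 * c2 * cosh h) * sinh h
  have hψ : ∀ h, HasDerivAt ψ (4 * c2 * ((cosh h - x0) * (cosh h - x1))) h := by
    intro h
    have := (hasDerivAt_id' h).fun_sub ((((hasDerivAt_cosh h).const_mul (2 * c2)).const_sub c1).fun_mul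
      (hasDerivAt_sinh h))
    refine this.congr_deriv ?_
    rw [← hfac]
    have := cosh_sq h
    linear_combination (-2 * c2) * this
  have hψc : Continuous ψ := by fun_prop
  have hψ0 : ψ 0 = 0 := by simp [ψ]
  have hψh0 : ψ h0 = 0 := by
    simp only [ψ, hc1, ← hx0]; field_simp; ring
  have hcm : ∀ {a b : ℝ}, 0 ≤ a → a ≤ b → cosh a ≤ cosh b := fun {a b} ha hab =>
    cosh_le_cosh.mpr (by rwa [abs_of_nonneg ha, abs_of_nonneg (ha.trans hab)])
  have hcs : ∀ {a b : ℝ}, 0 ≤ a → a < b → cosh a < cosh b := fun {a b} ha hab =>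
    cosh_lt_cosh.mpr (by rwa [abs_of_nonneg ha, abs_of_nonneg (ha.trans hab.le)])
  have hle : x1 ≤ x0 := by
    by_contra hlt
    push Not at hlt
    have : StrictMonoOn ψ (Set.Icc 0 h0) := by
      refine strictMonoOn_of_deriv_pos (convex_Icc _ _) hψc.continuousOn fun x hx => ?_
      rw [interior_Icc] at hx
      rw [(hψ x).deriv]
      have := hcs hx.1.le hx.2
      exact mul_pos (by positivity) (mul_pos_of_neg_of_neg (by linarith) (by linarith))
    have := this ⟨le_rfl, h0p.le⟩ ⟨h0p.le, le_rfl⟩ h0p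
    linarith
  have hge : 1 ≤ x1 := by
    by_contra hlt
    push Not at hlt
    have : StrictAntiOn ψ (Set.Icc 0 h0) := by
      refine strictAntiOn_of_deriv_neg (convex_Icc _ _) hψc.continuousOn fun x hx => ?_
      rw [interior_Icc] at hx
      rw [(hψ x).deriv]
      have := hcs hx.1.le hx.2
      have := one_le_cosh x
      exact mul_neg_of_pos_of_neg (by positivity) (mul_neg_of_neg_of_pos (by linarith) (by linarith))
    have := this ⟨le_rfl, h0p.le⟩ ⟨h0p.le, le_rfl⟩ h0p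
    linarith
  refine ⟨c1, c2, c1p.le, c2p.le, ?_, fun h hh => ?_, by linarith [hψh0]⟩
  · have := hfac 1
    have h1 : 1 ≤ x0 := one_le_cosh h0
    have : 0 ≤ 4 * c2 * ((1 - x0) * (1 - x1)) :=
      mul_nonneg (by positivity) (mul_nonneg_of_nonpos_of_nonpos (by linarith) (by linarith))
    linarith
  · suffices 0 ≤ ψ h by simp only [ψ] at this; linarith
    rcases le_total h h0 with hh0 | hh0
    · rcases le_total (cosh h) x1 with hc | hc
      · have : MonotoneOn ψ (Set.Icc 0 h) := by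
          refine monotoneOn_of_deriv_nonneg (convex_Icc _ _) hψc.continuousOn
            (fun x _ => (hψ x).differentiableAt.differentiableWithinAt) fun x hx => ?_
          rw [interior_Icc] at hx
          rw [(hψ x).deriv]
          have := hcm hx.1.le hx.2.le
          exact mul_nonneg (by positivity)
            (mul_nonneg_of_nonpos_of_nonpos (by linarith) (by linarith))
        have := this ⟨le_rfl, hh⟩ ⟨hh, le_rfl⟩ hh
        linarith
      · have : AntitoneOn ψ (Set.Icc h h0) := by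
          refine antitoneOn_of_deriv_nonpos (convex_Icc _ _) hψc.continuousOn
            (fun x _ => (hψ x).differentiableAt.differentiableWithinAt) fun x hx => ?_
          rw [interior_Icc] at hx
          rw [(hψ x).deriv]
          have := hcm hh hx.1.le
          have := hcm (hh.trans hx.1.le) hx.2.le
          exact mul_nonpos_of_nonneg_of_nonpos (by positivity)
            (mul_nonpos_of_nonpos_of_nonneg (by linarith) (by linarith))
        have := this ⟨le_rfl, hh0⟩ ⟨hh0, le_rfl⟩ hh0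
        linarith
    · have : MonotoneOn ψ (Set.Icc h0 h) := by
        refine monotoneOn_of_deriv_nonneg (convex_Icc _ _) hψc.continuousOn
          (fun x _ => (hψ x).differentiableAt.differentiableWithinAt) fun x hx => ?_
        rw [interior_Icc] at hx
        rw [(hψ x).deriv]
        have := hcm h0p.le hx.1.le
        exact mul_nonneg (by positivity) (mul_nonneg (by linarith) (by linarith))
      have := this ⟨le_rfl, hh0⟩ ⟨hh0, le_rfl⟩ hh0
      linarith

lemma ell_hyp {s t : ℝ} (ht : 0 < t) (hst : t < s) :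
    0 < log (s / t) ∧ 0 < sinh (log (s / t)) ∧
    ell (s ^ 2) (t ^ 2) = log (s / t) / sinh (log (s / t)) / (s * t) ∧
    (s ^ 2 + t ^ 2) / (s ^ 2 * t ^ 2) = 2 * cosh (log (s / t)) / (s * t) := by
  have hs : 0 < s := ht.trans hst
  have h1 : 0 < log (s / t) := log_pos ((one_lt_div ht).mpr hst)
  have hsq : t ^ 2 < s ^ 2 := by nlinarith
  refine ⟨h1, sinh_pos_iff.mpr h1, ?_, ?_⟩
  · rw [ell, if_neg hsq.ne', sinh_log (by positivity), log_pow, log_pow, log_div hs.ne' ht.ne']
    have : s ^ 2 - t ^ 2 ≠ 0 := by linarith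
    have h2 : (s / t - (s / t)⁻¹) / 2 = (s ^ 2 - t ^ 2) / (2 * (s * t)) := by field_simp
    rw [h2]; push_cast; field_simp
  · rw [cosh_log (by positivity)]; field_simp

/-- tangent bound for the inverse logarithmic mean -/
lemma ell_tangent {s0 t0 : ℝ} (ht0 : 0 < t0) (h0 : t0 < s0) : ∃ c1 c2 : ℝ, 0 ≤ c1 ∧ 0 ≤ c2 ∧
    (∀ s t, 0 < s → 0 < t →
      c1 / (s * t) - c2 * ((s ^ 2 + t ^ 2) / (s ^ 2 * t ^ 2)) ≤ ell (s ^ 2) (t ^ 2)) ∧
    c1 / (s0 * t0) - c2 * ((s0 ^ 2 + t0 ^ 2) / (s0 ^ 2 * t0 ^ 2)) = ell (s0 ^ 2) (t0 ^ 2) := by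
  obtain ⟨a1, a2, a3, a4⟩ := ell_hyp ht0 h0
  obtain ⟨c1, c2, h1, h2, h3, h4, h5⟩ := psi_lemma a1
  have key : ∀ s t, 0 < t → t < s →
      c1 / (s * t) - c2 * ((s ^ 2 + t ^ 2) / (s ^ 2 * t ^ 2)) ≤ ell (s ^ 2) (t ^ 2) := by
    intro s t ht hst
    obtain ⟨b1, b2, b3, b4⟩ := ell_hyp ht hst
    have hs : 0 < s := ht.trans hst
    rw [b3, b4]
    have := (le_div_iff₀ b2).mpr (h4 _ b1.le)
    calc c1 / (s * t) - c2 * (2 * cosh (log (s / t)) / (s * t))
        = (c1 - 2 * c2 * cosh (log (s / t))) / (s * t) := by field_simp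
      _ ≤ _ := div_le_div_of_nonneg_right this (by positivity)
  refine ⟨c1, c2, h1, h2, fun s t hs ht => ?_, ?_⟩
  · rcases lt_trichotomy s t with h | h | h
    · have := key t s hs h
      rwa [ell_comm, mul_comm t s, add_comm (t ^ 2), mul_comm (t ^ 2)] at this
    · subst h
      rw [ell, if_pos rfl]
      calc c1 / (s * s) - c2 * ((s ^ 2 + s ^ 2) / (s ^ 2 * s ^ 2)) = (c1 - 2 * c2) / s ^ 2 := by
            field_simp; ring
        _ ≤ _ := div_le_div_of_nonneg_right h3 (by positivity)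
    · exact key s t ht h
  · rw [a3, a4]
    have hs0 : 0 < s0 := ht0.trans h0
    have : log (s0 / t0) / sinh (log (s0 / t0)) = c1 - 2 * c2 * cosh (log (s0 / t0)) := by
      rw [div_eq_iff a2.ne', h5]
    rw [this]; field_simp

/-- entropy of a qubit state with determinant `v` -/
noncomputable def F (v : ℝ) : ℝ := binEntropy ((1 + √(1 - 4 * v)) / 2)

noncomputable def lp (v : ℝ) : ℝ := (1 + √(1 - 4 * v)) / 2
noncomputable def lm (v : ℝ) : ℝ := (1 - √(1 - 4 * v)) / 2

lemma continuous_F : Continuous F := by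
  unfold F
  exact binEntropy_continuous.comp (by fun_prop)

lemma lpm {v : ℝ} (h0 : 0 < v) (h1 : 4 * v < 1) :
    0 < lm v ∧ lm v < lp v ∧ lp v + lm v = 1 ∧ lp v * lm v = v := by
  have hs : 0 < √(1 - 4 * v) := sqrt_pos.mpr (by linarith)
  have hq : √(1 - 4 * v) ^ 2 = 1 - 4 * v := sq_sqrt (by linarith)
  have hl : √(1 - 4 * v) < 1 := by nlinarith
  unfold lm lp
  refine ⟨by linarith, by linarith, by ring, by nlinarith⟩

lemma F_deriv {v : ℝ} (h0 : 0 < v) (h1 : 4 * v < 1) : HasDerivAt F (ell (lp v) (lm v)) v := by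
  obtain ⟨a1, a2, a3, a4⟩ := lpm h0 h1
  have hs : 0 < √(1 - 4 * v) := sqrt_pos.mpr (by linarith)
  have d1 : HasDerivAt (fun v : ℝ => (1 + √(1 - 4 * v)) / 2) (-(4 * 1) / (2 * √(1 - 4 * v)) / 2) v :=
    (((((hasDerivAt_id' v).const_mul 4).const_sub 1).sqrt (by linarith)).const_add 1).div_const 2
  have d2 := hasDerivAt_binEntropy (p := lp v) (by linarith) (by linarith)
  refine (d2.comp v d1).congr_deriv ?_
  rw [ell, if_neg a2.ne', show 1 - lp v = lm v by linarith]
  have : lp v - lm v = √(1 - 4 * v) := by unfold lp lm; ring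
  rw [this]; field_simp; ring

/-- the tangent constants at determinant `v` -/
lemma tangent_at {v : ℝ} (h0 : 0 < v) (h1 : 4 * v < 1) : ∃ c1 c2 : ℝ, 0 ≤ c1 ∧ 0 ≤ c2 ∧
    (∀ s t, 0 < s → 0 < t →
      c1 / (s * t) - c2 * ((s ^ 2 + t ^ 2) / (s ^ 2 * t ^ 2)) ≤ ell (s ^ 2) (t ^ 2)) ∧
    c1 / √v - c2 / v = ell (lp v) (lm v) := by
  obtain ⟨a1, a2, a3, a4⟩ := lpm h0 h1
  have a5 : 0 < lp v := a1.trans a2
  obtain ⟨c1, c2, h1, h2, h3, h4⟩ := ell_tangent (sqrt_pos.mpr a1) (sqrt_lt_sqrt a1.le a2)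
  refine ⟨c1, c2, h1, h2, h3, ?_⟩
  rw [sq_sqrt a1.le, sq_sqrt a5.le, ← sqrt_mul a5.le, a3, a4] at h4
  rw [← h4]; ring

/-- `F` as a function of the concurrence -/
noncomputable def E (C : ℝ) : ℝ := F (C ^ 2 / 4)

lemma E_deriv {C : ℝ} (h0 : 0 < C) (h1 : C < 1) :
    HasDerivAt E (ell (lp (C ^ 2 / 4)) (lm (C ^ 2 / 4)) * (C / 2)) C := by
  have d1 : HasDerivAt (fun C : ℝ => C ^ 2 / 4) (C / 2) C :=
    ((hasDerivAt_pow 2 C).div_const 4).congr_deriv (by push_cast; ring)
  exact (F_deriv (by positivity) (by nlinarith)).comp C d1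

lemma E_mono : MonotoneOn E (Set.Icc 0 1) := by
  refine monotoneOn_of_deriv_nonneg (convex_Icc _ _)
    (continuous_F.comp (by fun_prop)).continuousOn (fun x hx => ?_) fun x hx => ?_
  · rw [interior_Icc] at hx
    exact (E_deriv hx.1 hx.2).differentiableAt.differentiableWithinAt
  · rw [interior_Icc] at hx
    rw [(E_deriv hx.1 hx.2).deriv]
    obtain ⟨a1, a2, -, -⟩ := lpm (v := x ^ 2 / 4) (by have := hx.1; positivity)
      (by nlinarith [hx.1, hx.2])
    exact mul_nonneg (ell_nonneg (a1.trans a2) a1) (by linarith [hx.1])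

lemma E_convex : ConvexOn ℝ (Set.Icc 0 1) E := by
  refine MonotoneOn.convexOn_of_deriv (convex_Icc _ _)
    (continuous_F.comp (by fun_prop)).continuousOn (fun x hx => ?_) fun x hx y hy hxy => ?_
  · rw [interior_Icc] at hx
    exact (E_deriv hx.1 hx.2).differentiableAt.differentiableWithinAt
  · rw [interior_Icc] at hx hy
    rw [(E_deriv hx.1 hx.2).deriv, (E_deriv hy.1 hy.2).deriv]
    have hx0 := hx.1
    have hy0 := hy.1
    obtain ⟨c1, c2, h1, h2, h3, h4⟩ := tangent_at (v := x ^ 2 / 4) (by positivity)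
      (by nlinarith [hx.1, hx.2])
    obtain ⟨a1, a2, a3, a4⟩ := lpm (v := y ^ 2 / 4) (by positivity) (by nlinarith [hy.1, hy.2])
    have a5 := a1.trans a2
    have h5 := h3 _ _ (sqrt_pos.mpr a5) (sqrt_pos.mpr a1)
    rw [sq_sqrt a1.le, sq_sqrt a5.le, ← sqrt_mul a5.le, a3, a4] at h5
    have e : ∀ z : ℝ, 0 < z → √(z ^ 2 / 4) = z / 2 := fun z hz => by
      rw [show z ^ 2 / 4 = (z / 2) ^ 2 by ring, sqrt_sq (by positivity)]
    rw [e x hx0] at h4
    rw [e y hy0] at h5
    rw [← h4]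
    calc (c1 / (x / 2) - c2 / (x ^ 2 / 4)) * (x / 2) = c1 - 2 * c2 / x := by field_simp; ring
      _ ≤ c1 - 2 * c2 / y := by gcongr
      _ = (c1 / (y / 2) - c2 * (1 / (y ^ 2 / 4))) * (y / 2) := by field_simp; ring
      _ ≤ _ := mul_le_mul_of_nonneg_right h5 (by positivity)

/-- the determinant function -/
def vv (γ ν p : ℝ) : ℝ := γ * ν * (1 - ν) + γ * (1 - γ) * (p - ν) ^ 2

lemma vv_eq (γ ν p : ℝ) :
    vv γ ν p = ((1 - γ) * p + γ * ν) * (1 - ((1 - γ) * p + γ * ν)) - (1 - γ) * (p * (1 - p)) := by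
  unfold vv; ring

lemma vv_nonneg {γ ν : ℝ} (hγ : γ ∈ Set.Icc (0 : ℝ) 1) (hν : ν ∈ Set.Icc (0 : ℝ) 1) (p : ℝ) :
    0 ≤ vv γ ν p := by
  have h1 : 0 ≤ 1 - γ := by linarith [hγ.2]
  have h2 : 0 ≤ 1 - ν := by linarith [hν.2]
  have := hγ.1
  have := hν.1
  unfold vv; positivity

lemma vv_le {γ ν p : ℝ} (hγ : γ ∈ Set.Icc (0 : ℝ) 1) (hp : p ∈ Set.Icc (0 : ℝ) 1) :
    4 * vv γ ν p ≤ 1 := by
  rw [vv_eq]
  have h1 : 0 ≤ (1 - γ) * (p * (1 - p)) :=
    mul_nonneg (by linarith [hγ.2]) (mul_nonneg hp.1 (by linarith [hp.2]))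
  nlinarith [sq_nonneg (1 - 2 * ((1 - γ) * p + γ * ν))]

lemma F_jensen {γ ν : ℝ} (hγ : γ ∈ Set.Icc (0 : ℝ) 1) (hν : ν ∈ Set.Icc (0 : ℝ) 1)
    {ι : Type*} [Fintype ι] (q p : ι → ℝ) (hq : ∀ a, 0 ≤ q a) (hs : ∑ a, q a = 1)
    (hp : ∀ a, p a ∈ Set.Icc (0 : ℝ) 1) :
    F (vv γ ν (∑ a, q a * p a)) ≤ ∑ a, q a * F (vv γ ν (p a)) := by
  have h1 : 0 ≤ γ * ν * (1 - ν) := mul_nonneg (mul_nonneg hγ.1 hν.1) (by linarith [hν.2])
  have h2 : 0 ≤ γ * (1 - γ) := mul_nonneg hγ.1 (by linarith [hγ.2])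
  let z : ℝ → ℂ := fun x => ⟨2 * √(γ * ν * (1 - ν)), 2 * √(γ * (1 - γ)) * (x - ν)⟩
  have hz : ∀ x, ‖z x‖ ^ 2 / 4 = vv γ ν x := fun x => by
    rw [Complex.sq_norm, Complex.normSq_mk]
    have e1 := sq_sqrt h1
    have e2 := sq_sqrt h2
    unfold vv
    linear_combination e1 + (x - ν) ^ 2 * e2
  have hz1 : ∀ x ∈ Set.Icc (0 : ℝ) 1, ‖z x‖ ∈ Set.Icc (0 : ℝ) 1 := fun x hx =>
    ⟨norm_nonneg _, by
      have := vv_le (ν := ν) hγ hx
      rw [← hz] at this
      nlinarith [norm_nonneg (z x)]⟩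
  have hF : ∀ x, F (vv γ ν x) = E ‖z x‖ := fun x => by rw [E, hz]
  simp only [hF]
  have hpb : ∑ a, q a * p a ∈ Set.Icc (0 : ℝ) 1 := by
    simpa using (convex_Icc (0 : ℝ) 1).sum_mem (t := Finset.univ) (fun a _ => hq a) hs
      (fun a _ => hp a)
  have hm : ∑ a, q a * ‖z (p a)‖ ∈ Set.Icc (0 : ℝ) 1 := by
    simpa using (convex_Icc (0 : ℝ) 1).sum_mem (t := Finset.univ) (fun a _ => hq a) hs
      (fun a _ => hz1 _ (hp a))
  have hzs : z (∑ a, q a * p a) = ∑ a, (q a : ℂ) * z (p a) := by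
    apply Complex.ext
    · simp only [z, Complex.re_sum, Complex.re_ofReal_mul, ← Finset.sum_mul, hs, one_mul]
    · simp only [z, Complex.im_sum, Complex.im_ofReal_mul]
      calc 2 * √(γ * (1 - γ)) * (∑ a, q a * p a - ν)
          = 2 * √(γ * (1 - γ)) * (∑ a, q a * p a - (∑ a, q a) * ν) := by rw [hs, one_mul]
        _ = _ := by
          rw [Finset.sum_mul, ← Finset.sum_sub_distrib, Finset.mul_sum]
          exact Finset.sum_congr rfl fun a _ => by ring
  calc E ‖z (∑ a, q a * p a)‖ ≤ E (∑ a, q a * ‖z (p a)‖) := by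
        refine E_mono (hz1 _ hpb) hm ?_
        rw [hzs]
        refine (norm_sum_le _ _).trans (le_of_eq ?_)
        refine Finset.sum_congr rfl fun a _ => ?_
        rw [norm_mul, Complex.norm_real, Real.norm_of_nonneg (hq a)]
    _ ≤ _ := by
        simpa using E_convex.map_sum_le (t := Finset.univ) (w := q) (p := fun a => ‖z (p a)‖)
          (fun a _ => hq a) hs (fun a _ => hz1 _ (hp a))

/-- the finite-sum certificate -/
lemma certificate {n : Type*} [Fintype n] (l : n → ℝ) (hl : ∀ i, 0 < l i) (N : n → n → ℂ)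
    {γ η p : ℝ} (hγ : 0 < γ) (hη : 0 < η) (hγη : γ + η = 1) (hp : 0 < p)
    (hv : 4 * (γ * η * p ^ 2) < 1)
    (ha : ∑ i, ∑ j, Complex.normSq (N i j) * l j = η * p)
    (hb : ∑ i, ∑ j, Complex.normSq (N i j) * l i = 1 - η * p)
    (hc : ∑ i, ∑ j, l i * (N i j * N j i).re = 0)
    (hd : ∑ i, ∑ j, Complex.normSq (N i j) * l j ^ 2 / l i ≤ η * (1 / γ - p)) :
    η * (2 * (γ * η * p ^ 2) * ell (lp (γ * η * p ^ 2)) (lm (γ * η * p ^ 2))) ≤
      ∑ i, ∑ j, ell (l i) (l j) * (Complex.normSq (N i j) * l j * (γ * l j + η * l i) +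
        l i * l j * (N i j * N j i).re) := by
  obtain ⟨c1, c2, h1, h2, h3, h4⟩ := tangent_at (v := γ * η * p ^ 2) (by positivity) hv
  set s : n → ℝ := fun i => √(l i) with hs
  have hsp : ∀ i, 0 < s i := fun i => sqrt_pos.mpr (hl i)
  have hss : ∀ i, s i ^ 2 = l i := fun i => sq_sqrt (hl i).le
  set x : n → n → ℝ := fun i j => Complex.normSq (N i j) with hx
  set y : n → n → ℝ := fun i j => (N i j * N j i).re with hy
  have hys : ∀ i j, y i j = y j i := fun i j => by simp only [hy]; rw [mul_comm]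
  set t : n → n → ℝ := fun i j => x i j * l j * (γ * l j + η * l i) + l i * l j * y i j with ht
  set g := √γ with hg
  set e := √η with he
  have gg : g ^ 2 = γ := sq_sqrt hγ.le
  have ee : e ^ 2 = η := sq_sqrt hη.le
  have gp : 0 < g := sqrt_pos.mpr hγ
  have ep : 0 < e := sqrt_pos.mpr hη
  have sym : ∀ f : n → n → ℝ, ∑ i, ∑ j, f i j = ∑ i, ∑ j, (f i j + f j i) / 2 := by
    intro f
    simp only [add_div, Finset.sum_add_distrib, ← Finset.sum_div]
    rw [Finset.sum_comm (f := fun i j => f j i)]; ring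
  have hc' : ∑ i, ∑ j, l j * y i j = 0 := by
    rw [Finset.sum_comm, ← hc]
    exact Finset.sum_congr rfl fun i _ => Finset.sum_congr rfl fun j _ => by rw [hys]
  -- pointwise lower bound
  have pw : ∀ i j, (c1 * (2 * g * e * (x i j * l j + l j * y i j)) -
        c2 * (γ * (x i j * l j ^ 2 / l i) + x i j * l j + η * (x i j * l i) + l i * y i j + l j * y i j) +
      (c1 * (2 * g * e * (x j i * l i + l i * y j i)) -
        c2 * (γ * (x j i * l i ^ 2 / l j) + x j i * l i + η * (x j i * l j) + l j * y j i + l i * y j i))) / 2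
      ≤ (ell (l i) (l j) * t i j + ell (l j) (l i) * t j i) / 2 := by
    intro i j
    have hi := hl i
    have hj := hl j
    have si := hsp i
    have sj := hsp j
    have q0 : 0 ≤ t i j + t j i := by
      have : t i j + t j i = γ * (((N i j).re * l j + (N j i).re * l i) ^ 2 +
          ((N i j).im * l j - (N j i).im * l i) ^ 2) + η * (l i * l j) *
          (((N i j).re + (N j i).re) ^ 2 + ((N i j).im - (N j i).im) ^ 2) := by
        simp only [ht, hx, hy, Complex.normSq_apply, Complex.mul_re]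
        linear_combination (-2 * l i * l j * ((N i j).re * (N j i).re - (N i j).im * (N j i).im)) * hγη
      rw [this]; positivity
    have q1 : 2 * g * e * (s i * s j) * (x i j * l j + l j * y i j + (x j i * l i + l i * y j i)) ≤
        t i j + t j i := by
      have : t i j + t j i - 2 * g * e * (s i * s j) *
          (x i j * l j + l j * y i j + (x j i * l i + l i * y j i)) =
          ((N i j).re * (g * l j - e * (s i * s j)) + (N j i).re * (g * l i - e * (s i * s j))) ^ 2 +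
          ((N i j).im * (g * l j - e * (s i * s j)) - (N j i).im * (g * l i - e * (s i * s j))) ^ 2 := by
        simp only [ht, hx, hy, Complex.normSq_apply, Complex.mul_re]
        have hγη' : g ^ 2 + e ^ 2 = 1 := by rw [gg, ee, hγη]
        rw [← hss i, ← hss j, ← gg, ← ee]
        linear_combination (-2 * s i ^ 2 * s j ^ 2 *
          ((N i j).re * (N j i).re - (N i j).im * (N j i).im)) * hγη'
      nlinarith [sq_nonneg ((N i j).re * (g * l j - e * (s i * s j)) + (N j i).re * (g * l i - e * (s i * s j))),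
        sq_nonneg ((N i j).im * (g * l j - e * (s i * s j)) - (N j i).im * (g * l i - e * (s i * s j)))]
    have q2 := h3 _ _ si sj
    rw [hss, hss] at q2
    have q3 := mul_le_mul_of_nonneg_right q2 q0
    have q4 : c1 * (2 * g * e * (x i j * l j + l j * y i j + (x j i * l i + l i * y j i))) ≤
        c1 / (s i * s j) * (t i j + t j i) := by
      rw [div_mul_eq_mul_div, mul_div_assoc]
      refine mul_le_mul_of_nonneg_left ?_ h1
      rw [le_div_iff₀ (by positivity)]
      linarith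
    have q5 : (l i + l j) / (l i * l j) * (t i j + t j i) =
        (γ * (x i j * l j ^ 2 / l i) + x i j * l j + η * (x i j * l i) + l i * y i j + l j * y i j) +
        (γ * (x j i * l i ^ 2 / l j) + x j i * l i + η * (x j i * l j) + l j * y j i + l i * y j i) := by
      simp only [ht]
      have : η = 1 - γ := by linarith
      rw [this]
      field_simp; ring
    rw [ell_comm (l j) (l i)]
    have q6 : (c1 / (s i * s j) - c2 * ((l i + l j) / (l i * l j))) * (t i j + t j i) =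
        c1 / (s i * s j) * (t i j + t j i) - c2 * ((l i + l j) / (l i * l j) * (t i j + t j i)) := by
      ring
    rw [q6, q5] at q3
    nlinarith
  have main := Finset.sum_le_sum fun i (_ : i ∈ Finset.univ) =>
    Finset.sum_le_sum fun j (_ : j ∈ Finset.univ) => pw i j
  rw [← sym (fun i j => ell (l i) (l j) * t i j), ← sym (fun i j =>
    c1 * (2 * g * e * (x i j * l j + l j * y i j)) -
        c2 * (γ * (x i j * l j ^ 2 / l i) + x i j * l j + η * (x i j * l i) + l i * y i j + l j * y i j))]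
    at main
  refine le_trans ?_ main
  simp only [Finset.sum_sub_distrib, ← Finset.mul_sum, Finset.sum_add_distrib]
  have hc'' : ∑ i, l i * ∑ j, y i j = 0 := by
    rw [← hc]; simp only [Finset.mul_sum, hy]
  rw [ha, hb, hc'', hc']
  have hsv : √(γ * η * p ^ 2) = g * e * p := by
    rw [← gg, ← ee, show g ^ 2 * e ^ 2 * p ^ 2 = (g * e * p) ^ 2 by ring, sqrt_sq (by positivity)]
  rw [← h4, hsv]
  have e1 : η * (2 * (γ * η * p ^ 2) * (c1 / (g * e * p) - c2 / (γ * η * p ^ 2))) =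
      c1 * (2 * g * e * (η * p)) - c2 * (2 * η) := by
    rw [← gg, ← ee]; field_simp
  rw [e1]
  have e2 : γ * ∑ i, ∑ j, x i j * l j ^ 2 / l i ≤ η - γ * η * p := by
    calc _ ≤ γ * (η * (1 / γ - p)) := mul_le_mul_of_nonneg_left hd hγ.le
      _ = _ := by field_simp
  have e3 : γ * ∑ i, ∑ j, x i j * l j ^ 2 / l i + η * p + η * (1 - η * p) + 0 + 0 ≤ 2 * η := by
    have : η * p = (γ + η) * (η * p) := by rw [hγη, one_mul]
    nlinarith
  have := mul_le_mul_of_nonneg_left e3 h2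
  linarith

end Crest.Agent.R341
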