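import Crest.Agent.R341.Pert

/-! One infinitesimal measurement step for the amplitude damping channel. -/

set_option autoImplicit false
set_option linter.unusedSectionVars false

open Matrix Crest.Quantum Filter Topology
open scoped ComplexOrder ComplexConjugate
open Crest.Agent.VN

namespace Crest.Agent.R341

variable {e : Type*} [Fintype e] [DecidableEq e]

/-- output of the amplitude damping map on a block matrix -/
noncomputable def adOut (γ η : ℝ) (A B C : Matrix e e ℂ) : Matrix (e ⊕ e) (e ⊕ e) ℂ :=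
  fromBlocks (A + (γ : ℂ) • C) (((√η : ℝ) : ℂ) • B) (((√η : ℝ) : ℂ) • Bᴴ) ((η : ℂ) • C)

/-- conditional state -/
noncomputable def om (A B C : Matrix e e ℂ) (x : ℂ) : Matrix e e ℂ :=
  A + x • Bᴴ + conj x • B + ((Complex.normSq x : ℝ) : ℂ) • C

lemma trace_fromBlocks' (A B C D : Matrix e e ℂ) :
    (fromBlocks A B C D).trace = A.trace + D.trace := by
  simp [Matrix.trace, Fintype.sum_sum_type]

lemma psd_block11 {A B C D : Matrix e e ℂ} (h : (fromBlocks A B C D).PosSemidef) : A.PosSemidef :=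
  h.submatrix Sum.inl

lemma psd_block22 {A B C D : Matrix e e ℂ} (h : (fromBlocks A B C D).PosSemidef) : D.PosSemidef :=
  h.submatrix Sum.inr

lemma psd_move {A B C : Matrix e e ℂ} (hM : (fromBlocks A B Bᴴ C).PosSemidef) (x : ℂ) (τ : ℝ) :
    (fromBlocks (om A B C x) ((τ : ℂ) • (B + x • C)) ((τ : ℂ) • (B + x • C))ᴴ
      (((τ ^ 2 : ℝ) : ℂ) • C)).PosSemidef := by
  have hC : Cᴴ = C := (psd_block22 hM).1
  have := hM.mul_mul_conjTranspose_same
    (fromBlocks (1 : Matrix e e ℂ) (x • (1 : Matrix e e ℂ)) 0 ((τ : ℂ) • (1 : Matrix e e ℂ)))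
  convert this using 1
  simp only [fromBlocks_conjTranspose, fromBlocks_multiply, conjTranspose_smul, conjTranspose_one,
    conjTranspose_zero, Matrix.mul_smul, Matrix.smul_mul, Matrix.one_mul, Matrix.mul_one,
    Matrix.mul_zero, Matrix.zero_mul, zero_add, conjTranspose_add, hC, om,
    Complex.normSq_eq_conj_mul_self, RCLike.star_def, Complex.conj_ofReal, Complex.ofReal_pow]
  congr 1 <;> module

lemma adOut_eq (γ η : ℝ) (hη : 0 ≤ η) (A B C : Matrix e e ℂ) :
    adOut γ η A B C =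
      fromBlocks (1 : Matrix e e ℂ) 0 0 (((√η : ℝ) : ℂ) • (1 : Matrix e e ℂ)) * fromBlocks A B Bᴴ C *
        (fromBlocks (1 : Matrix e e ℂ) 0 0 (((√η : ℝ) : ℂ) • (1 : Matrix e e ℂ)))ᴴ +
      fromBlocks ((γ : ℂ) • C) 0 0 0 := by
  have h : ((√η : ℝ) : ℂ) * ((√η : ℝ) : ℂ) = η := by
    rw [← Complex.ofReal_mul, Real.mul_self_sqrt hη]
  simp [adOut, fromBlocks_conjTranspose, fromBlocks_multiply, fromBlocks_add, smul_smul, h,
    -Complex.coe_smul]

lemma psd_fromBlocks_zero {C : Matrix e e ℂ} (hC : C.PosSemidef) :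
    (fromBlocks C 0 0 (0 : Matrix e e ℂ)).PosSemidef := by
  have := hC.mul_mul_conjTranspose_same (fromRows (1 : Matrix e e ℂ) (0 : Matrix e e ℂ))
  convert this using 1
  ext (i | i) (j | j) <;> simp [fromRows_mul, conjTranspose_fromRows_eq_fromCols_conjTranspose]

lemma adOut_psd {γ η : ℝ} (hγ : 0 ≤ γ) (hη : 0 ≤ η) {A B C : Matrix e e ℂ}
    (hM : (fromBlocks A B Bᴴ C).PosSemidef) : (adOut γ η A B C).PosSemidef := by
  rw [adOut_eq γ η hη]
  exact (hM.mul_mul_conjTranspose_same _).add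
    (psd_fromBlocks_zero (psd_rsmul (psd_block22 hM) hγ))

lemma adOut_trace {γ η : ℝ} (hγη : γ + η = 1) (A B C : Matrix e e ℂ) :
    (adOut γ η A B C).trace = A.trace + C.trace := by
  have : (γ : ℂ) + η = 1 := by exact_mod_cast hγη
  rw [adOut, trace_fromBlocks', trace_add, trace_smul, trace_smul, smul_eq_mul, smul_eq_mul]
  linear_combination C.trace * this

lemma adOut_posDef {γ η : ℝ} (hγ : 0 < γ) (hη : 0 < η) {A B C : Matrix e e ℂ}
    (hM : (fromBlocks A B Bᴴ C).PosSemidef) (hC : C.PosDef) : (adOut γ η A B C).PosDef := by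
  refine PosDef.of_dotProduct_mulVec_pos (adOut_psd hγ.le hη.le hM).1 fun v hv => ?_
  by_cases h0 : v ∘ Sum.inl = 0
  · have h1 : v ∘ Sum.inr ≠ 0 := by
      intro h1; apply hv; ext (i | i)
      · exact congrFun h0 i
      · exact congrFun h1 i
    have : star v ⬝ᵥ (adOut γ η A B C *ᵥ v) =
        star (v ∘ Sum.inr) ⬝ᵥ (((η : ℂ) • C) *ᵥ (v ∘ Sum.inr)) := by
      conv_lhs => rw [← Sum.elim_comp_inl_inr v, h0]
      rw [adOut, fromBlocks_mulVec, Function.star_sumElim, sumElim_dotProduct_sumElim]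
      simp
    rw [this]
    exact (hC.smul (by exact_mod_cast hη)).dotProduct_mulVec_pos h1
  · rw [adOut_eq γ η hη.le, add_mulVec, dotProduct_add]
    refine add_pos_of_nonneg_of_pos ((hM.mul_mul_conjTranspose_same _).dotProduct_mulVec_nonneg v) ?_
    have : star v ⬝ᵥ (fromBlocks ((γ : ℂ) • C) 0 0 (0 : Matrix e e ℂ) *ᵥ v) =
        star (v ∘ Sum.inl) ⬝ᵥ (((γ : ℂ) • C) *ᵥ (v ∘ Sum.inl)) := by
      conv_lhs => rw [← Sum.elim_comp_inl_inr v]
      rw [fromBlocks_mulVec, Function.star_sumElim, sumElim_dotProduct_sumElim]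
      simp
    rw [this]
    exact (hC.smul (by exact_mod_cast hγ)).dotProduct_mulVec_pos h0

/-- the annihilation operator with a phase -/
noncomputable def Nop (e : Type*) [DecidableEq e] (u : ℂ) : Matrix (e ⊕ e) (e ⊕ e) ℂ :=
  fromBlocks 0 (u • (1 : Matrix e e ℂ)) 0 0

lemma variational {γ η : ℝ} (hγ : 0 < γ) (hη : 0 < η) {A B C : Matrix e e ℂ}
    (hM : (fromBlocks A B Bᴴ C).PosSemidef) {u : ℂ} (hu : conj u * u = 1)
    (Z : Matrix (e ⊕ e) (e ⊕ e) ℂ) :
    2 * (Zᴴ * (Nop e u * adOut γ η A B C)).trace.re - (Zᴴ * adOut γ η A B C * Z).trace.re ≤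
      η / γ * (A.trace.re + η * C.trace.re) := by
  set M := fromBlocks A B Bᴴ C with hMdef
  set Δ : Matrix (e ⊕ e) (e ⊕ e) ℂ :=
    fromBlocks (1 : Matrix e e ℂ) 0 0 (((√η : ℝ) : ℂ) • (1 : Matrix e e ℂ)) with hΔ
  have h : ((√η : ℝ) : ℂ) * ((√η : ℝ) : ℂ) = η := by
    rw [← Complex.ofReal_mul, Real.mul_self_sqrt hη.le]
  have hu' : u * conj u = 1 := by rw [mul_comm, hu]
  have hΔh : Δᴴ = Δ := by simp [hΔ, fromBlocks_conjTranspose]
  have e1 : adOut γ η A B C = Δ * M * Δ + (γ : ℂ) • (Nop e u * M * (Nop e u)ᴴ) := by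
    rw [adOut_eq γ η hη.le, ← hΔ, hΔh]
    congr 1
    simp [Nop, hMdef, fromBlocks_conjTranspose, fromBlocks_multiply, fromBlocks_smul, smul_smul, hu]
  have e2 : Nop e u * adOut γ η A B C = ((√η : ℝ) : ℂ) • (Nop e u * M * Δ) := by
    simp only [Nop, hMdef, hΔ, adOut, fromBlocks_multiply, fromBlocks_smul, Matrix.mul_smul,
      Matrix.smul_mul, Matrix.mul_one, Matrix.one_mul, Matrix.mul_zero, Matrix.zero_mul, zero_add,
      add_zero, smul_zero]
    rw [fromBlocks_inj]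
    refine ⟨by module, ?_, rfl, rfl⟩
    match_scalars; linear_combination (-u) * h
  have e3 : (Δ * M * Δ).trace.re = A.trace.re + η * C.trace.re := by
    simp [hΔ, hMdef, fromBlocks_multiply, trace_fromBlocks', smul_smul, h]
  have p1 := trace_re_nonneg ((hM.conjTranspose_mul_mul_same Δ).conjTranspose_mul_mul_same Z)
  rw [hΔh] at p1
  have p2 := trace_re_nonneg
    (hM.conjTranspose_mul_mul_same (((√η / γ : ℝ) : ℂ) • Δ - (Nop e u)ᴴ * Z))
  have e4 : (((√η / γ : ℝ) : ℂ) • Δ - (Nop e u)ᴴ * Z)ᴴ * M * (((√η / γ : ℝ) : ℂ) • Δ - (Nop e u)ᴴ * Z) =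
      (((√η / γ) ^ 2 : ℝ) : ℂ) • (Δ * M * Δ) - ((√η / γ : ℝ) : ℂ) • (Zᴴ * (Nop e u * M * Δ))ᴴ
        - ((√η / γ : ℝ) : ℂ) • (Zᴴ * (Nop e u * M * Δ)) + Zᴴ * (Nop e u * M * (Nop e u)ᴴ) * Z := by
    simp only [conjTranspose_sub, conjTranspose_smul, conjTranspose_mul, hΔh, hM.1.eq,
      conjTranspose_conjTranspose, Matrix.sub_mul, Matrix.mul_sub, Matrix.smul_mul, Matrix.mul_smul,
      Matrix.mul_assoc, RCLike.star_def, Complex.conj_ofReal, Complex.ofReal_pow]
    module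
  rw [e4] at p2
  rw [e2, e1]
  simp only [Matrix.mul_add, Matrix.add_mul, Matrix.mul_smul, Matrix.smul_mul, trace_add, trace_sub,
    trace_smul, smul_eq_mul, Complex.add_re, Complex.sub_re, Complex.re_ofReal_mul,
    trace_conjTranspose, RCLike.star_def, Complex.conj_re] at p2 ⊢
  rw [e3] at p2
  have q := mul_le_mul_of_nonneg_left p2 hγ.le
  have f1 : γ * (√η / γ) ^ 2 = η / γ := by
    rw [div_pow, Real.sq_sqrt hη.le]; field_simp
  have f2 : γ * (√η / γ) = √η := by field_simp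
  have : γ * ((√η / γ) ^ 2 * (A.trace.re + η * C.trace.re) -
      √η / γ * (Zᴴ * (Nop e u * M * Δ)).trace.re - √η / γ * (Zᴴ * (Nop e u * M * Δ)).trace.re +
      (Zᴴ * (Nop e u * M * (Nop e u)ᴴ) * Z).trace.re) =
      η / γ * (A.trace.re + η * C.trace.re) - 2 * (√η * (Zᴴ * (Nop e u * M * Δ)).trace.re) +
      γ * (Zᴴ * (Nop e u * M * (Nop e u)ᴴ) * Z).trace.re := by
    rw [← f1]
    linear_combination (-2 * (Zᴴ * (Nop e u * M * Δ)).trace.re) * f2
  linarith

lemma trace_uconj {n : Type*} [Fintype n] [DecidableEq n] {U : Matrix n n ℂ} (hU : Uᴴ * U = 1)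
    (X : Matrix n n ℂ) : (Uᴴ * X * U).trace = X.trace := by
  rw [trace_mul_comm, ← Matrix.mul_assoc, mul_eq_one_comm.mp hU, Matrix.one_mul]

lemma uconj_mul {n : Type*} [Fintype n] [DecidableEq n] {U : Matrix n n ℂ} (hU : Uᴴ * U = 1)
    (X Y : Matrix n n ℂ) : (Uᴴ * X * U) * (Uᴴ * Y * U) = Uᴴ * (X * Y) * U := by
  calc (Uᴴ * X * U) * (Uᴴ * Y * U) = Uᴴ * X * (U * Uᴴ) * Y * U := by simp only [Matrix.mul_assoc]
    _ = _ := by rw [mul_eq_one_comm.mp hU]; simp only [Matrix.mul_assoc, Matrix.mul_one]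

lemma uconj_conjT {n : Type*} [Fintype n] (U X : Matrix n n ℂ) :
    (Uᴴ * X * U)ᴴ = Uᴴ * Xᴴ * U := by
  simp only [conjTranspose_mul, conjTranspose_conjTranspose, Matrix.mul_assoc]

/-- lower bound for the loss -/
lemma loss_ge {γ η p : ℝ} (hγ : 0 < γ) (hη : 0 < η) (hγη : γ + η = 1) {A B C : Matrix e e ℂ}
    (hM : (fromBlocks A B Bᴴ C).PosSemidef) (hA : A.trace.re = 1 - p) (hC : C.trace.re = p)
    (hp : 0 < p) (hv : 4 * (γ * η * p ^ 2) < 1) {u : ℂ} (hu : conj u * u = 1)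
    {U : Matrix (e ⊕ e) (e ⊕ e) ℂ} {l : e ⊕ e → ℝ} (hd : Diag (adOut γ η A B C) U l)
    (hl : ∀ i, 0 < l i) :
    2 * (γ * η * p ^ 2) * ell (lp (γ * η * p ^ 2)) (lm (γ * η * p ^ 2)) ≤
      loss l 0 (Uᴴ * (((√η)⁻¹ : ℝ) • (Nop e u * adOut γ η A B C + adOut γ η A B C * (Nop e u)ᴴ)) * U)
        (Uᴴ * (Nop e u * adOut γ η A B C * (Nop e u)ᴴ - ((1 / 2 : ℝ) : ℂ) •
          ((Nop e u)ᴴ * Nop e u * adOut γ η A B C + adOut γ η A B C * ((Nop e u)ᴴ * Nop e u))) * U) := by
  set ρ := adOut γ η A B C with hρ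
  set N := Nop e u with hN
  set N' := Uᴴ * N * U with hN'
  have hu' : u * conj u = 1 := by rw [mul_comm, hu]
  have e1 : Uᴴ * (((√η)⁻¹ : ℝ) • (N * ρ + ρ * Nᴴ)) * U =
      ((√η)⁻¹ : ℝ) • (N' * dg l + dg l * N'ᴴ) := by
    rw [← hd.conj, hN', uconj_conjT, uconj_mul hd.uu, uconj_mul hd.uu, Matrix.mul_smul,
      Matrix.smul_mul, Matrix.mul_add, Matrix.add_mul]
  have e2 : Uᴴ * (N * ρ * Nᴴ - ((1 / 2 : ℝ) : ℂ) • (Nᴴ * N * ρ + ρ * (Nᴴ * N))) * U =
      N' * dg l * N'ᴴ - ((1 / 2 : ℝ) : ℂ) • (N'ᴴ * N' * dg l + dg l * (N'ᴴ * N')) := by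
    rw [← hd.conj, hN', uconj_conjT]
    simp only [uconj_mul hd.uu]
    rw [Matrix.mul_sub, Matrix.sub_mul, Matrix.mul_smul, Matrix.smul_mul, Matrix.mul_add,
      Matrix.add_mul]
  rw [e1, e2]
  refine le_of_mul_le_mul_left ?_ hη
  rw [loss_eq l N' hη hγη]
  refine certificate l hl N' hγ hη hγη hp hv ?_ ?_ ?_ ?_
  · rw [← trace_mul_dg_mul_conjT, ← hd.conj, hN', uconj_conjT, uconj_mul hd.uu, uconj_mul hd.uu,
      trace_uconj hd.uu]
    have : N * ρ * Nᴴ = fromBlocks ((η : ℂ) • C) 0 0 0 := by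
      simp only [hN, hρ, Nop, adOut, fromBlocks_conjTranspose, fromBlocks_multiply,
        conjTranspose_smul, conjTranspose_zero, conjTranspose_one, Matrix.mul_smul,
        Matrix.smul_mul, Matrix.mul_one, Matrix.one_mul, Matrix.mul_zero, Matrix.zero_mul, zero_add,
        add_zero, RCLike.star_def, smul_zero]
      congr 1
      match_scalars; linear_combination (η : ℂ) * hu
    rw [this, trace_fromBlocks']
    simp [hC]
  · rw [← trace_conjT_mul_dg_mul, ← hd.conj, hN', uconj_conjT, uconj_mul hd.uu, uconj_mul hd.uu,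
      trace_uconj hd.uu]
    have : Nᴴ * ρ * N = fromBlocks 0 0 0 (A + (γ : ℂ) • C) := by
      simp [hN, hρ, Nop, adOut, fromBlocks_conjTranspose, fromBlocks_multiply, smul_smul, hu',
        -smul_add]
    rw [this, trace_fromBlocks']
    simp only [trace_zero, zero_add, trace_add, trace_smul, smul_eq_mul, Complex.add_re,
      Complex.re_ofReal_mul, hA, hC]
    linear_combination p * hγη
  · have h0 : N' * N' = 0 := by
      rw [hN', uconj_mul hd.uu]
      simp [hN, Nop, fromBlocks_multiply]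
    refine Finset.sum_eq_zero fun i _ => ?_
    rw [← Finset.mul_sum, ← Complex.re_sum, ← mul_apply, h0]; simp
  · have key := variational hγ hη hM hu (U * (dg (fun i => 1 / l i) * (N' * dg l)) * Uᴴ)
    rw [← hρ, ← hN] at key
    set Z := dg (fun i => 1 / l i) * (N' * dg l) with hZ
    have hUZ : Uᴴ * (U * Z * Uᴴ) * U = Z := by
      calc Uᴴ * (U * Z * Uᴴ) * U = (Uᴴ * U) * Z * (Uᴴ * U) := by simp only [Matrix.mul_assoc]
        _ = Z := by rw [hd.uu]; simp
    rw [← trace_uconj hd.uu (_ * (N * ρ)), ← trace_uconj hd.uu (_ * ρ * _), ← uconj_mul hd.uu,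
      ← uconj_mul hd.uu, ← uconj_mul hd.uu, ← uconj_mul hd.uu, ← uconj_conjT, hUZ, hd.conj,
      ← hN'] at key
    have h1 : dg l * Z = N' * dg l := by
      rw [hZ, ← Matrix.mul_assoc, dg_mul_dg]
      have : (fun i => l i * (1 / l i)) = fun _ => (1 : ℝ) := by
        ext i; field_simp [(hl i).ne']
      rw [this, dg_one, Matrix.one_mul]
    rw [Matrix.mul_assoc Zᴴ, h1] at key
    have h2 : (Zᴴ * (N' * dg l)).trace.re = ∑ i, ∑ j, Complex.normSq (N' i j) * l j ^ 2 / l i := by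
      rw [hZ, conjTranspose_mul, dg_conjT, trace_conjT_mul_dg_mul]
      refine Finset.sum_congr rfl fun i _ => Finset.sum_congr rfl fun j _ => ?_
      rw [mul_dg_apply, Complex.normSq_mul, Complex.normSq_ofReal]; ring
    rw [h2, hA, hC] at key
    have : η / γ * (1 - p + η * p) = η * (1 / γ - p) := by
      have : η = 1 - γ := by linarith
      rw [this]; field_simp; ring
    linarith

theorem step {γ η p : ℝ} (hγ : 0 < γ) (hη : 0 < η) (hγη : γ + η = 1) {A B C : Matrix e e ℂ}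
    (hM : (fromBlocks A B Bᴴ C).PosSemidef) (hCd : C.PosDef) (hA : A.trace.re = 1 - p)
    (hC : C.trace.re = p) (hp : 0 < p) (hv : 4 * (γ * η * p ^ 2) < 1) {ε : ℝ} (hε : 0 < ε) :
    ∃ (z : ℂ) (θ : ℝ), 0 < θ ∧ θ < 1 ∧ Complex.normSq z + θ ^ 2 = 1 ∧
      (z * conj B.trace).re = 0 ∧
      vnEntropy (adOut γ η (om A B C z) ((θ : ℂ) • (B + z • C)) (((θ ^ 2 : ℝ) : ℂ) • C)) / 2 +
      vnEntropy (adOut γ η (om A B C (-z)) ((θ : ℂ) • (B + (-z) • C)) (((θ ^ 2 : ℝ) : ℂ) • C)) / 2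
        - F (γ * η * (θ ^ 2 * p) ^ 2) ≤
      vnEntropy (adOut γ η A B C) - F (γ * η * p ^ 2) + ε * (1 - θ ^ 2) := by
  obtain ⟨u, hu, hub⟩ : ∃ u : ℂ, conj u * u = 1 ∧ (u * conj B.trace).re = 0 := by
    by_cases h : B.trace = 0
    · exact ⟨1, by simp, by simp [h]⟩
    · refine ⟨Complex.I * B.trace / ‖B.trace‖, ?_, ?_⟩
      · rw [← Complex.normSq_eq_conj_mul_self, Complex.normSq_div, Complex.normSq_mul,
          Complex.normSq_I, one_mul, Complex.normSq_ofReal, Complex.normSq_eq_norm_sq, ← sq,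
          div_self (by positivity)]; simp
      · rw [div_mul_eq_mul_div, mul_assoc, Complex.mul_conj, Complex.div_ofReal_re]; simp
  have hu' : u * conj u = 1 := by rw [mul_comm, hu]
  have hun : Complex.normSq u = 1 := by
    rw [← Complex.normSq_eq_conj_mul_self] at hu; exact_mod_cast hu
  have hCh : Cᴴ = C := hCd.1
  have hρ := adOut_posDef hγ hη hM hCd
  obtain ⟨U, l, hd⟩ := exists_diag hρ.1
  have hl := hd.pos hρ
  let θ : ℝ → ℝ := fun s => √(1 - s ^ 2)
  have cθ : Continuous θ := by fun_prop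
  have θ0 : θ 0 = 1 := by simp [θ]
  have θn : ∀ s, 0 ≤ θ s := fun s => Real.sqrt_nonneg _
  let H : ℝ → Matrix (e ⊕ e) (e ⊕ e) ℂ := fun s => fromBlocks (u • Bᴴ + conj u • B)
    ((((√η * θ s : ℝ) : ℂ) * u) • C) ((((√η * θ s : ℝ) : ℂ) * conj u) • C) 0
  let L : ℝ → Matrix (e ⊕ e) (e ⊕ e) ℂ := fun s => fromBlocks ((η : ℂ) • C)
    (((-(√η / (1 + θ s)) : ℝ) : ℂ) • B) (((-(√η / (1 + θ s)) : ℝ) : ℂ) • Bᴴ) (((-η : ℝ) : ℂ) • C)
  have cH : Continuous H := by
    refine Continuous.matrix_fromBlocks continuous_const ?_ ?_ continuous_const <;> fun_prop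
  have cL : Continuous L := by
    have : Continuous fun s => (-(√η / (1 + θ s)) : ℝ) :=
      (continuous_const.div (by fun_prop) fun s => by have := θn s; positivity).neg
    refine Continuous.matrix_fromBlocks continuous_const ?_ ?_ continuous_const <;> fun_prop
  have hH : ∀ s, (H s).IsHermitian := fun s => by
    simp [H, IsHermitian, fromBlocks_conjTranspose, hCh, add_comm]
  have hL : ∀ s, (L s).IsHermitian := fun s => by
    simp [L, IsHermitian, fromBlocks_conjTranspose, hCh]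
  have hid : ∀ s r : ℝ, s ^ 2 < 1 → r ^ 2 = s ^ 2 →
      adOut γ η A B C + ((r : ℂ) • H s + ((s ^ 2 : ℝ) : ℂ) • L s) =
      adOut γ η (om A B C (r * u)) ((θ s : ℂ) • (B + (r * u) • C)) (((θ s ^ 2 : ℝ) : ℂ) • C) := by
    intro s r hs hr
    have t1 : θ s ^ 2 = 1 - s ^ 2 := Real.sq_sqrt (by linarith)
    have t2 : s ^ 2 * (√η / (1 + θ s)) = √η * (1 - θ s) := by
      have := θn s
      field_simp
      linear_combination t1
    have t1' : (θ s : ℂ) ^ 2 = 1 - (s : ℂ) ^ 2 := by exact_mod_cast t1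
    have t2' : (s : ℂ) ^ 2 * (((√η : ℝ) : ℂ) / (1 + (θ s : ℂ))) = ((√η : ℝ) : ℂ) * (1 - θ s) := by
      exact_mod_cast t2
    have t3 : (r : ℂ) * r = (s : ℂ) ^ 2 := by rw [← sq]; exact_mod_cast hr
    have t4 : (γ : ℂ) + η = 1 := by exact_mod_cast hγη
    simp only [adOut, om, H, L, fromBlocks_smul, fromBlocks_add, conjTranspose_smul,
      conjTranspose_add, hCh, Complex.normSq_mul, hun, Complex.normSq_ofReal, map_mul,
      Complex.conj_ofReal, RCLike.star_def]
    push_cast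
    congr 1
    · match_scalars
      · ring
      · linear_combination -t3 - (γ : ℂ) * t1' + (s : ℂ) ^ 2 * t4
      · ring
      · ring
    · match_scalars
      · linear_combination -t2'
      · ring
    · match_scalars
      · linear_combination -t2'
      · ring
    · match_scalars
      linear_combination -(η : ℂ) * t1'
  have hlt : ∀ᶠ s : ℝ in 𝓝[>] 0, s ^ 2 < 1 := by
    refine nhdsWithin_le_nhds ?_
    exact (continuous_pow 2).continuousAt.eventually_lt_const (by simp)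
  have hθp : ∀ s : ℝ, s ^ 2 < 1 → 0 < θ s := fun s hs => Real.sqrt_pos.mpr (by linarith)
  have hP : ∀ᶠ s : ℝ in 𝓝[>] 0,
      (adOut γ η A B C + ((s : ℂ) • H s + ((s ^ 2 : ℝ) : ℂ) • L s)).PosDef ∧
      (adOut γ η A B C + (((-s : ℝ) : ℂ) • H s + ((s ^ 2 : ℝ) : ℂ) • L s)).PosDef := by
    filter_upwards [hlt] with s hs
    have := hθp s hs
    rw [hid s s hs rfl, hid s (-s) hs (by ring)]
    exact ⟨adOut_posDef hγ hη (psd_move hM _ _) (hCd.smul (by exact_mod_cast (by positivity))),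
      adOut_posDef hγ hη (psd_move hM _ _) (hCd.smul (by exact_mod_cast (by positivity)))⟩
  have k1 := avg_expand hd hl H L cH.continuousAt cL.continuousAt hH hL hP (half_pos hε)
  have hs0 : (√η : ℝ) ≠ 0 := (Real.sqrt_pos.mpr hη).ne'
  have hs0' : ((√η : ℝ) : ℂ) ≠ 0 := by exact_mod_cast hs0
  have hss : ((√η : ℝ) : ℂ) * ((√η : ℝ) : ℂ) = η := by
    rw [← Complex.ofReal_mul, Real.mul_self_sqrt hη.le]
  have eH : H 0 = ((√η)⁻¹ : ℝ) • (Nop e u * adOut γ η A B C + adOut γ η A B C * (Nop e u)ᴴ) := by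
    rw [← Complex.coe_smul]
    simp only [H, θ0, Nop, adOut, fromBlocks_conjTranspose, fromBlocks_multiply, fromBlocks_add,
      fromBlocks_smul, conjTranspose_smul, conjTranspose_zero, conjTranspose_one, Matrix.mul_smul,
      Matrix.smul_mul, Matrix.mul_one, Matrix.one_mul, Matrix.mul_zero, Matrix.zero_mul, zero_add,
      add_zero, smul_zero, RCLike.star_def]
    push_cast
    congr 1
    · match_scalars <;> field_simp
    · match_scalars; field_simp; linear_combination u * hss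
    · match_scalars; field_simp; linear_combination (conj u) * hss
  have eL : L 0 = Nop e u * adOut γ η A B C * (Nop e u)ᴴ - ((1 / 2 : ℝ) : ℂ) •
      ((Nop e u)ᴴ * Nop e u * adOut γ η A B C + adOut γ η A B C * ((Nop e u)ᴴ * Nop e u)) := by
    rw [sub_eq_add_neg, ← neg_smul]
    simp only [L, θ0, Nop, adOut, fromBlocks_conjTranspose, fromBlocks_multiply, fromBlocks_add,
      fromBlocks_smul, conjTranspose_smul, conjTranspose_zero, conjTranspose_one, Matrix.mul_smul,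
      Matrix.smul_mul, Matrix.mul_one, Matrix.one_mul, Matrix.mul_zero, Matrix.zero_mul, zero_add,
      add_zero, smul_zero, RCLike.star_def, smul_smul, hu', hu]
    push_cast
    congr 1
    · match_scalars; linear_combination (-(η : ℂ)) * hu
    · match_scalars; ring
    · match_scalars; ring
    · match_scalars; ring
  have k2 := loss_ge hγ hη hγη hM hA hC hp hv hu hd hl
  rw [← eH, ← eL] at k2
  set v := γ * η * p ^ 2 with hvdef
  have hv0 : 0 < v := by positivity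
  have dF : HasDerivAt (fun δ : ℝ => F (v * (1 - δ) ^ 2)) (ell (lp v) (lm v) * (-(2 * v))) 0 := by
    have d1 : HasDerivAt (fun δ : ℝ => v * (1 - δ) ^ 2) (-(2 * v)) 0 := by
      have := (((hasDerivAt_id' (0 : ℝ)).const_sub 1).fun_pow 2).const_mul v
      exact this.congr_deriv (by simp; ring)
    refine HasDerivAt.comp (0 : ℝ) (h₂ := F) ?_ d1
    simpa using F_deriv hv0 hv
  have hsq : Tendsto (fun s : ℝ => s ^ 2) (𝓝[>] 0) (𝓝[>] 0) := by
    refine tendsto_nhdsWithin_iff.mpr ⟨?_, ?_⟩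
    · have : Tendsto (fun s : ℝ => s ^ 2) (𝓝 0) (𝓝 (0 ^ 2)) := (continuous_pow 2).tendsto 0
      simpa using this.mono_left nhdsWithin_le_nhds
    · filter_upwards [self_mem_nhdsWithin] with s hs
      exact pow_pos (show 0 < s from hs) 2
  have k3 := (dF.tendsto_slope_zero_right.comp hsq).eventually_const_lt
    (show ell (lp v) (lm v) * (-(2 * v)) - ε / 2 < _ by linarith)
  obtain ⟨s, ⟨⟨hs1, hs2⟩, hs3⟩, hs4⟩ := (((k1.and k3).and hlt).and self_mem_nhdsWithin).exists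
  have hs : 0 < s := hs4
  have t1 : θ s ^ 2 = 1 - s ^ 2 := Real.sq_sqrt (by linarith)
  refine ⟨s * u, θ s, hθp s hs3, ?_, ?_, ?_, ?_⟩
  · have := hθp s hs3
    nlinarith
  · rw [Complex.normSq_mul, hun, Complex.normSq_ofReal, t1]; ring
  · rw [mul_assoc, Complex.re_ofReal_mul, hub, mul_zero]
  · rw [hid s s hs3 rfl, hid s (-s) hs3 (by ring)] at hs1
    simp only [Function.comp, zero_add, sub_zero, one_pow, mul_one, smul_eq_mul] at hs2
    rw [← div_eq_inv_mul, lt_div_iff₀ (by positivity)] at hs2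
    have e1 : γ * η * (θ s ^ 2 * p) ^ 2 = v * (1 - s ^ 2) ^ 2 := by rw [t1, hvdef]; ring
    have e2 : -((s : ℂ) * u) = ((-s : ℝ) : ℂ) * u := by push_cast; ring
    rw [e1, e2, t1]
    rw [t1] at hs1
    have := mul_le_mul_of_nonneg_left k2 (sq_nonneg s)
    nlinarith

end Crest.Agent.R341
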